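import Mathlib

/-! Totally bounded "address" pseudometrics and their partitions of unity (row 91). -/

set_option autoImplicit false

namespace Crest.Agent.R91

open Filter Topology Finset

/-- `1` below `1`, `0` above `2`. -/
noncomputable def chi (t : ℝ) : ℝ := max 0 (min 1 (2 - t))

lemma chi_nonneg (t : ℝ) : 0 ≤ chi t := le_max_left _ _
lemma chi_le_one (t : ℝ) : chi t ≤ 1 := max_le zero_le_one (min_le_left _ _)
lemma abs_chi_le (t : ℝ) : |chi t| ≤ 1 := by rw [abs_of_nonneg (chi_nonneg t)]; exact chi_le_one t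
lemma chi_of_le {t : ℝ} (h : t ≤ 1) : chi t = 1 := by
  unfold chi; rw [min_eq_left (by linarith), max_eq_right zero_le_one]
lemma chi_of_ge {t : ℝ} (h : 2 ≤ t) : chi t = 0 :=
  max_eq_left ((min_le_right _ _).trans (by linarith))
lemma lt_two_of_chi_ne {t : ℝ} (h : chi t ≠ 0) : t < 2 := not_le.1 fun h' => h (chi_of_ge h')
lemma chi_lip (s t : ℝ) : |chi s - chi t| ≤ |s - t| := by
  unfold chi
  refine (abs_max_sub_max_le_max _ _ _ _).trans (max_le (by simp) ?_)
  refine (abs_min_sub_min_le_max _ _ _ _).trans (max_le (by simp) ?_)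
  rw [sub_sub_sub_cancel_left, abs_sub_comm]

/-- A bounded, totally bounded pseudometric below the given one. -/
structure Addr (M : Type) [PseudoMetricSpace M] where
  D : M → M → ℝ
  D_self : ∀ p, D p p = 0
  D_comm : ∀ p q, D p q = D q p
  D_tri : ∀ p q r, D p r ≤ D p q + D q r
  D_le : ∀ p q, D p q ≤ dist p q
  D_bdd : ∀ p q, D p q ≤ 2
  net : ∀ r : ℝ, 0 < r → ∃ C : Finset M, ∀ p, ∃ c ∈ C, D p c ≤ r

variable {M : Type} [PseudoMetricSpace M]

theorem exists_addr [Nonempty M] {ι : Type} [Countable ι] [Nonempty ι] (f : ι → M → ℝ)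
    (hb : ∀ i, ∃ B, ∀ p, |f i p| ≤ B) (hl : ∀ i, ∃ L, ∀ p q, |f i p - f i q| ≤ L * dist p q) :
    ∃ A : Addr M, ∀ i, ∃ Q, 0 ≤ Q ∧ ∀ p q, |f i p - f i q| ≤ Q * A.D p q := by
  classical
  obtain ⟨e, he⟩ := exists_surjective_nat ι
  choose B hB using hb
  choose L hL using hl
  set t : ℕ → ℝ := fun n => (n + 1) * (|B (e n)| + |L (e n)| + 1) with ht
  have ht0 : ∀ n, 0 < t n := fun n => by positivity
  set ψ : ℕ → M → ℝ := fun n p => f (e n) p / t n with hψ
  have h1 : ∀ n p, |ψ n p| ≤ 1 / (n + 1) := fun n p => by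
    simp only [hψ]
    rw [abs_div, abs_of_pos (ht0 n), div_le_div_iff₀ (ht0 n) (by positivity)]
    have := (hB (e n) p).trans (le_abs_self _)
    have h2 : (0 : ℝ) ≤ n + 1 := by positivity
    simp only [ht]
    nlinarith [abs_nonneg (L (e n))]
  have h1' : ∀ n p, |ψ n p| ≤ 1 := fun n p => (h1 n p).trans (by
    rw [div_le_one (by positivity)]; linarith [Nat.cast_nonneg (α := ℝ) n])
  have h2 : ∀ n p q, |ψ n p - ψ n q| ≤ dist p q := fun n p q => by
    simp only [hψ]
    rw [← sub_div, abs_div, abs_of_pos (ht0 n), div_le_iff₀ (ht0 n)]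
    refine (hL (e n) p q).trans ?_
    rw [mul_comm]
    refine mul_le_mul_of_nonneg_left ((le_abs_self _).trans ?_) dist_nonneg
    simp only [ht]
    nlinarith [abs_nonneg (L (e n)), abs_nonneg (B (e n)), Nat.cast_nonneg (α := ℝ) n]
  have hbd : ∀ p q, BddAbove (Set.range fun n => |ψ n p - ψ n q|) := fun p q =>
    ⟨dist p q, by rintro _ ⟨n, rfl⟩; exact h2 n p q⟩
  refine ⟨{
    D := fun p q => ⨆ n, |ψ n p - ψ n q|
    D_self := fun p => by simp
    D_comm := fun p q => by simp only [abs_sub_comm]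
    D_tri := fun p q r => ciSup_le fun n =>
      (abs_sub_le _ _ _).trans (add_le_add (le_ciSup (hbd p q) n) (le_ciSup (hbd q r) n))
    D_le := fun p q => ciSup_le fun n => h2 n p q
    D_bdd := fun p q => ciSup_le fun n => (abs_sub _ _).trans (by linarith [h1' n p, h1' n q])
    net := fun r hr => ?_ }, fun i => ?_⟩
  · obtain ⟨n0, hn0⟩ := exists_nat_gt (2 / r)
    let key : M → Fin n0 → ℤ := fun p n => ⌊ψ n p / r⌋
    have hfin : (Set.range key).Finite := by
      refine (Set.Finite.pi' fun _ : Fin n0 => Set.finite_Icc ⌊-1 / r⌋ ⌊1 / r⌋).subset ?_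
      rintro _ ⟨p, rfl⟩ n
      have := abs_le.1 (h1' n p)
      exact ⟨Int.floor_mono (div_le_div_of_nonneg_right this.1 hr.le),
        Int.floor_mono (div_le_div_of_nonneg_right this.2 hr.le)⟩
    refine ⟨hfin.toFinset.image (Function.invFun key), fun p =>
      ⟨Function.invFun key (key p), mem_image_of_mem _ (hfin.mem_toFinset.2 ⟨p, rfl⟩), ?_⟩⟩
    have hk : key (Function.invFun key (key p)) = key p := Function.invFun_eq ⟨p, rfl⟩
    refine ciSup_le fun n => ?_
    by_cases hn : n < n0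
    · have := Int.abs_sub_lt_one_of_floor_eq_floor (congrFun hk ⟨n, hn⟩).symm
      rw [← sub_div, abs_div, abs_of_pos hr, div_lt_one hr] at this
      exact this.le
    · refine (abs_sub _ _).trans ((add_le_add (h1 n _) (h1 n _)).trans ?_)
      rw [div_lt_iff₀ hr] at hn0
      have : (n0 : ℝ) ≤ n := by exact_mod_cast not_lt.1 hn
      rw [← add_div, div_le_iff₀ (by positivity)]
      nlinarith
  · obtain ⟨n, rfl⟩ := he i
    refine ⟨t n, (ht0 n).le, fun p q => ?_⟩
    have := le_ciSup (hbd p q) n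
    simp only [hψ] at this
    rwa [← sub_div, abs_div, abs_of_pos (ht0 n), div_le_iff₀ (ht0 n), mul_comm] at this

namespace Addr

variable (A : Addr M)

lemma D_nonneg (p q : M) : 0 ≤ A.D p q := by
  have := A.D_tri p q p
  rw [A.D_self, A.D_comm q p] at this
  linarith

lemma abs_D_sub (p q c : M) : |A.D p c - A.D q c| ≤ A.D p q := by
  have h1 := A.D_tri p q c
  have h2 := A.D_tri q p c
  rw [A.D_comm q p] at h2
  exact abs_le.2 ⟨by linarith, by linarith⟩

/-- Unnormalised bump. -/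
noncomputable def pu (r : ℝ) (c p : M) : ℝ := max 0 (2 * r - A.D p c)

/-- Partition of unity. -/
noncomputable def pi (r : ℝ) (C : Finset M) (c p : M) : ℝ := A.pu r c p / ∑ c' ∈ C, A.pu r c' p

/-- Plateau function, equal to `1` on the support of `pi`. -/
noncomputable def rho (r : ℝ) (c p : M) : ℝ := chi (A.D p c / r - 1)

lemma pu_nonneg (r : ℝ) (c p : M) : 0 ≤ A.pu r c p := le_max_left _ _

lemma pu_lip (r : ℝ) (c p q : M) : |A.pu r c p - A.pu r c q| ≤ A.D p q := by
  unfold pu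
  refine (abs_max_sub_max_le_max _ _ _ _).trans (max_le (by simpa using A.D_nonneg p q) ?_)
  rw [sub_sub_sub_cancel_left, abs_sub_comm]
  exact A.abs_D_sub p q c

lemma le_sum_pu {r : ℝ} {C : Finset M} (hC : ∀ p, ∃ c ∈ C, A.D p c ≤ r) (p : M) :
    r ≤ ∑ c' ∈ C, A.pu r c' p := by
  obtain ⟨c, hc, h⟩ := hC p
  refine le_trans ?_ (single_le_sum (f := fun c' => A.pu r c' p) (fun c' _ => A.pu_nonneg r c' p) hc)
  exact le_max_of_le_right (by linarith)

lemma pi_nonneg (r : ℝ) (C : Finset M) (c p : M) : 0 ≤ A.pi r C c p :=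
  div_nonneg (A.pu_nonneg _ _ _) (sum_nonneg fun _ _ => A.pu_nonneg _ _ _)

lemma sum_pi {r : ℝ} (hr : 0 < r) {C : Finset M} (hC : ∀ p, ∃ c ∈ C, A.D p c ≤ r) (p : M) :
    ∑ c ∈ C, A.pi r C c p = 1 := by
  unfold pi
  rw [← sum_div, div_self (hr.trans_le (A.le_sum_pu hC p)).ne']

lemma lt_of_pi_ne {r : ℝ} {C : Finset M} {c p : M} (h : A.pi r C c p ≠ 0) : A.D p c < 2 * r := by
  by_contra h'
  apply h
  unfold pi
  rw [show A.pu r c p = 0 from max_eq_left (by linarith [not_lt.1 h']), zero_div]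

lemma sum_pi_lip {r : ℝ} (hr : 0 < r) {C : Finset M} (hC : ∀ p, ∃ c ∈ C, A.D p c ≤ r) (p q : M) :
    ∑ c ∈ C, |A.pi r C c p - A.pi r C c q| ≤ 2 * C.card / r * A.D p q := by
  set U := ∑ c' ∈ C, A.pu r c' p with hU
  set V := ∑ c' ∈ C, A.pu r c' q with hV
  have hU0 : r ≤ U := A.le_sum_pu hC p
  have hV0 : r ≤ V := A.le_sum_pu hC q
  have hU1 : 0 < U := by linarith
  have hV1 : 0 < V := by linarith
  have h1 : ∑ c ∈ C, |A.pu r c p - A.pu r c q| ≤ C.card * A.D p q := by
    refine (sum_le_sum fun c _ => A.pu_lip r c p q).trans ?_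
    simp
  have h2 : |V - U| ≤ C.card * A.D p q := by
    rw [abs_sub_comm, hU, hV, ← sum_sub_distrib]
    exact (abs_sum_le_sum_abs _ _).trans h1
  have h3 : ∀ c ∈ C, |A.pi r C c p - A.pi r C c q|
      ≤ |A.pu r c p - A.pu r c q| / U + A.pu r c q * (|V - U| / (U * V)) := fun c _ => by
    have : A.pi r C c p - A.pi r C c q
        = (A.pu r c p - A.pu r c q) / U + A.pu r c q * ((V - U) / (U * V)) := by
      unfold pi; rw [← hU, ← hV]; field_simp; ring
    rw [this]
    refine (abs_add_le _ _).trans (le_of_eq ?_)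
    rw [abs_div, abs_mul, abs_div, abs_of_pos hU1, abs_of_nonneg (A.pu_nonneg _ _ _),
      abs_of_pos (mul_pos hU1 hV1)]
  refine (sum_le_sum h3).trans ?_
  rw [sum_add_distrib, ← sum_div, ← sum_mul, ← hV]
  have e : V * (|V - U| / (U * V)) = |V - U| / U := by field_simp
  rw [e, ← add_div]
  have h4 : 0 ≤ C.card * A.D p q := mul_nonneg (Nat.cast_nonneg _) (A.D_nonneg p q)
  calc _ ≤ (2 * (C.card * A.D p q)) / U := div_le_div_of_nonneg_right (by linarith) hU1.le
    _ ≤ (2 * (C.card * A.D p q)) / r := div_le_div_of_nonneg_left (by linarith) hr hU0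
    _ = _ := by ring

lemma rho_mul_pi {r : ℝ} (hr : 0 < r) (C : Finset M) (c p : M) :
    A.rho r c p * A.pi r C c p = A.pi r C c p := by
  by_cases h : A.pi r C c p = 0
  · rw [h, mul_zero]
  · have := A.lt_of_pi_ne h
    unfold rho
    rw [chi_of_le, one_mul]
    rw [sub_le_iff_le_add, div_le_iff₀ hr]; linarith

lemma lt_of_rho_ne {r : ℝ} (hr : 0 < r) {c p : M} (h : A.rho r c p ≠ 0) : A.D p c < 3 * r := by
  have := lt_two_of_chi_ne h
  rw [sub_lt_iff_lt_add, div_lt_iff₀ hr] at this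
  linarith

lemma rho_lip {r : ℝ} (hr : 0 < r) (c p q : M) : |A.rho r c p - A.rho r c q| ≤ A.D p q / r := by
  refine (chi_lip _ _).trans ?_
  rw [sub_sub_sub_cancel_right, ← sub_div, abs_div, abs_of_pos hr]
  exact div_le_div_of_nonneg_right (A.abs_D_sub p q c) hr.le

theorem exists_scales [Nonempty M] (b : ℤ → ℝ) (hb : ∀ k, 0 < b k) (hb' : Tendsto b atTop atTop) :
    ∃ (r : ℤ → ℝ) (C : ℤ → Finset M), (∀ k, 0 < r k ∧ (∀ p, ∃ c ∈ C k, A.D p c ≤ r k) ∧
      2 * (C k).card / r k ≤ b k) ∧ Tendsto r atTop (𝓝 0) := by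
  let S : ℤ → Set ℝ := fun k =>
    {r | 0 < r ∧ ∃ C : Finset M, (∀ p, ∃ c ∈ C, A.D p c ≤ r) ∧ 2 * C.card / r ≤ b k}
  have hne : ∀ k, (S k).Nonempty := fun k => by
    have := hb k
    refine ⟨max 2 (2 / b k), lt_max_of_lt_left two_pos, {Classical.arbitrary M}, fun p =>
      ⟨_, mem_singleton_self _, le_max_of_le_left (A.D_bdd _ _)⟩, ?_⟩
    rw [card_singleton, Nat.cast_one, mul_one, div_le_iff₀ (lt_max_of_lt_left two_pos),
      ← div_le_iff₀' this]
    exact le_max_right _ _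
  have hbd : ∀ k, BddBelow (S k) := fun k => ⟨0, fun r hr => hr.1.le⟩
  have hex : ∀ k, ∃ r ∈ S k, r < sInf (S k) + 1 / b k := fun k =>
    exists_lt_of_csInf_lt (hne k) (lt_add_of_pos_right _ (one_div_pos.2 (hb k)))
  choose r hr1 hr2 using hex
  choose C hC1 hC2 using fun k => (hr1 k).2
  refine ⟨r, C, fun k => ⟨(hr1 k).1, hC1 k, hC2 k⟩, ?_⟩
  rw [tendsto_order]
  refine ⟨fun a ha => Eventually.of_forall fun k => ha.trans (hr1 k).1, fun ε hε => ?_⟩
  obtain ⟨C0, hC0⟩ := A.net (ε / 2) (half_pos hε)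
  filter_upwards [hb'.eventually_ge_atTop (2 * C0.card / (ε / 2)),
    hb'.eventually_ge_atTop (2 / ε)] with k h1 h2
  have h3 : sInf (S k) ≤ ε / 2 := csInf_le (hbd k) ⟨half_pos hε, C0, hC0, h1⟩
  have h4 : 1 / b k ≤ ε / 2 := by
    rw [div_le_iff₀ hε] at h2
    rw [div_le_iff₀ (hb k)]; linarith
  linarith [hr2 k]

end Addr

end Crest.Agent.R91
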