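import Crest.Agent.R91.Model

/-! Window maps and the graded class of test maps (row 91). -/

set_option autoImplicit false

namespace Crest.Agent.R91

open Filter Topology Finset

variable {E : Type} [NormedAddCommGroup E] [NormedSpace ℝ E]

/-- Identity on the ball of radius `R`, zero outside the ball of radius `2 R`. -/
noncomputable def phi (R : ℝ) (u : E) : E := chi (‖u‖ / R) • u

lemma phi_of_le {R : ℝ} (hR : 0 < R) {u : E} (h : ‖u‖ ≤ R) : phi R u = u := by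
  unfold phi; rw [chi_of_le ((div_le_one hR).2 h), one_smul]

lemma chi_mul_le {R t : ℝ} (hR : 0 < R) : chi (t / R) * t ≤ 2 * R := by
  by_cases h : chi (t / R) = 0
  · rw [h, zero_mul]; linarith
  · have h1 := lt_two_of_chi_ne h
    rw [div_lt_iff₀ hR] at h1
    nlinarith [chi_nonneg (t / R), chi_le_one (t / R)]

lemma norm_phi_le {R : ℝ} (hR : 0 < R) (u : E) : ‖phi R u‖ ≤ 2 * R := by
  unfold phi
  rw [norm_smul, Real.norm_of_nonneg (chi_nonneg _)]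
  exact chi_mul_le hR

lemma phi_lip {R : ℝ} (hR : 0 < R) (u v : E) : ‖phi R u - phi R v‖ ≤ 3 * ‖u - v‖ := by
  wlog h : ‖v‖ ≤ ‖u‖ generalizing u v
  · rw [norm_sub_rev, norm_sub_rev u]; exact this v u (not_le.1 h).le
  unfold phi
  refine (smul_sub_smul_le _ _ _ _).trans ?_
  have h1 : |chi (‖u‖ / R)| * ‖u - v‖ ≤ ‖u - v‖ :=
    mul_le_of_le_one_left (norm_nonneg _) (abs_chi_le _)
  have h2 : |chi (‖u‖ / R) - chi (‖v‖ / R)| * ‖v‖ ≤ 2 * ‖u - v‖ := by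
    by_cases hv : 2 * R ≤ ‖v‖
    · rw [chi_of_ge ((le_div_iff₀ hR).2 hv), chi_of_ge ((le_div_iff₀ hR).2 (hv.trans h))]
      simp
    · have h3 : |chi (‖u‖ / R) - chi (‖v‖ / R)| ≤ ‖u - v‖ / R := by
        refine (chi_lip _ _).trans ?_
        rw [← sub_div, abs_div, abs_of_pos hR]
        exact div_le_div_of_nonneg_right (abs_norm_sub_norm_le _ _) hR.le
      refine (mul_le_mul h3 (not_le.1 hv).le (norm_nonneg _) (by positivity)).trans_eq ?_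
      field_simp
  linarith

namespace Ctx

variable (c : Ctx E)

/-- The partition of unity of scale `k`. -/
noncomputable def pi (k : ℤ) (a p : MM E) : ℝ := c.A.pi (c.r k) (c.C k) a p

/-- A combination of the partition of unity of scale `k`. -/
noncomputable def G (k : ℤ) (co : MM E → ℝ) (p : MM E) : ℝ := ∑ a ∈ c.C k, co a * c.pi k a p

lemma abs_G_le (k : ℤ) {co : MM E → ℝ} (h : ∀ a, |co a| ≤ 1) (p : MM E) : |c.G k co p| ≤ 1 := by
  rw [← c.A.sum_pi (c.r_pos k) (c.C_net k) p]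
  refine (abs_sum_le_sum_abs _ _).trans (sum_le_sum fun a _ => ?_)
  unfold pi
  rw [abs_mul, abs_of_nonneg (c.A.pi_nonneg _ _ _ _)]
  exact mul_le_of_le_one_left (c.A.pi_nonneg _ _ _ _) (h a)

lemma G_lip (k : ℤ) {co : MM E → ℝ} (h : ∀ a, |co a| ≤ 1) (p q : MM E) :
    |c.G k co p - c.G k co q| ≤ eta * Real.exp (Lam * k) * c.A.D p q := by
  refine le_trans ?_ ((c.A.sum_pi_lip (c.r_pos k) (c.C_net k) p q).trans
    (mul_le_mul_of_nonneg_right (c.C_card k) (c.A.D_nonneg p q)))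
  unfold G
  rw [← sum_sub_distrib]
  refine (abs_sum_le_sum_abs _ _).trans (sum_le_sum fun a _ => ?_)
  rw [← mul_sub, abs_mul]
  exact mul_le_of_le_one_left (abs_nonneg _) (h a)

lemma G_ne {k : ℤ} {co : MM E → ℝ} {p : MM E} (h : c.G k co p ≠ 0) :
    ∃ a ∈ c.C k, co a ≠ 0 ∧ c.A.D p a < 2 * c.r k := by
  obtain ⟨a, ha, h1⟩ := exists_ne_zero_of_sum_ne_zero h
  exact ⟨a, ha, left_ne_zero_of_mul h1, c.A.lt_of_pi_ne (right_ne_zero_of_mul h1)⟩

/-- The scalar factor of a window map. -/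
noncomputable def wh (i : ℕ) (K : Finset ℤ) (co : ℤ → MM E → ℝ) (p : MM E) : ℝ :=
  ∑ k ∈ K, ww i k p * c.G k (co k) p

/-- A window map. -/
noncomputable def Win (i : ℕ) (K : Finset ℤ) (co : ℤ → MM E → ℝ) (p : MM E) : E :=
  c.wh i K co p • p.1 i

/-- Admissible window data. -/
def Adm (K : Finset ℤ) (co : ℤ → MM E → ℝ) : Prop :=
  K.card ≤ 4 ∧ (∀ k a, |co k a| ≤ 1) ∧ ∃ a0, ∀ k a, co k a ≠ 0 → c.A.D a0 a < 3 * c.r k

lemma abs_wh_le (i : ℕ) (K : Finset ℤ) {co : ℤ → MM E → ℝ} (h : ∀ k a, |co k a| ≤ 1) (p : MM E) :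
    |c.wh i K co p| ≤ 1 := by
  refine (abs_sum_le_sum_abs _ _).trans (le_trans (sum_le_sum fun k _ => ?_)
    (sum_hat_le (uu i p) K))
  rw [abs_mul, abs_of_nonneg (ww_nonneg i k p)]
  exact mul_le_of_le_one_right (ww_nonneg i k p) (c.abs_G_le k (h k) p)

lemma norm_Win_le (i : ℕ) (K : Finset ℤ) {co : ℤ → MM E → ℝ} (h : ∀ k a, |co k a| ≤ 1)
    (p : MM E) : ‖c.Win i K co p‖ ≤ ‖p.1 i‖ := by
  unfold Win
  rw [norm_smul]
  exact mul_le_of_le_one_left (norm_nonneg _) (c.abs_wh_le i K h p)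

omit [NormedSpace ℝ E] in
lemma sig_eta_le {i : ℕ} {k : ℤ} {p : MM E} (h : |uu i p + k| < 2) :
    sig i p * (eta * Real.exp (Lam * k)) ≤ 1 / 16000 := by
  have h1 := (sig_lt_of_uu h).le
  refine (mul_le_mul_of_nonneg_right h1 (mul_pos eta_pos (Real.exp_pos _)).le).trans_eq ?_
  unfold eta
  rw [mul_left_comm, ← Real.exp_add, show -Lam * ((k : ℝ) - 2) + Lam * k = 2 * Lam by ring]
  field_simp

lemma Win_lip (i : ℕ) {K : Finset ℤ} (hK : K.card ≤ 4) {co : ℤ → MM E → ℝ}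
    (h : ∀ k a, |co k a| ≤ 1) (p q : MM E) :
    ‖c.Win i K co p - c.Win i K co q‖ ≤ ‖p.1 - q.1‖ + 1 / 1000 * dist p q := by
  refine smul_coord_lip (c.abs_wh_le i K h) (fun p q hpq => ?_) p q
  have key : ∀ k ∈ K, sig i q * |ww i k p * c.G k (co k) p - ww i k q * c.G k (co k) q|
      ≤ 1 / 4000 * dist p q := by
    intro k _
    have e : ww i k p * c.G k (co k) p - ww i k q * c.G k (co k) q
        = (ww i k p - ww i k q) * c.G k (co k) p
          + ww i k q * (c.G k (co k) p - c.G k (co k) q) := by ring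
    have h1 : sig i q * |(ww i k p - ww i k q) * c.G k (co k) p| ≤ 2 / Lam * dist p q := by
      refine le_trans (mul_le_mul_of_nonneg_left ?_ (sig_nonneg i q)) (sig_mul_uu hpq)
      rw [abs_mul]
      exact (mul_le_of_le_one_right (abs_nonneg _) (c.abs_G_le k (h k) p)).trans (ww_lip i k p q)
    have h2 : sig i q * |ww i k q * (c.G k (co k) p - c.G k (co k) q)| ≤ 1 / 16000 * dist p q := by
      by_cases hw : ww i k q = 0
      · rw [hw, zero_mul, abs_zero, mul_zero]; positivity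
      · rw [abs_mul, abs_of_nonneg (ww_nonneg i k q)]
        refine (mul_le_mul_of_nonneg_left ((mul_le_of_le_one_left (abs_nonneg _)
          (ww_le_one i k q)).trans (c.G_lip k (h k) p q)) (sig_nonneg i q)).trans ?_
        rw [← mul_assoc]
        exact mul_le_mul (sig_eta_le ((abs_lt_of_hat_ne hw).trans one_lt_two)) (c.A.D_le p q)
          (c.A.D_nonneg p q) (by norm_num)
    rw [e]
    refine (mul_le_mul_of_nonneg_left (abs_add_le _ _) (sig_nonneg i q)).trans ?_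
    rw [mul_add]
    unfold Lam at h1
    linarith [dist_nonneg (x := p) (y := q)]
  unfold wh
  rw [← sum_sub_distrib]
  refine (mul_le_mul_of_nonneg_left (abs_sum_le_sum_abs _ _) (sig_nonneg i q)).trans ?_
  rw [mul_sum]
  refine (sum_le_sum key).trans ?_
  rw [sum_const, nsmul_eq_mul]
  have : (K.card : ℝ) ≤ 4 := by exact_mod_cast hK
  nlinarith [dist_nonneg (x := p) (y := q)]

open Classical in
/-- Indicator of a finite set. -/
noncomputable def ind (T : Finset (MM E)) (a : MM E) : ℝ := if a ∈ T then 1 else 0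

omit [NormedSpace ℝ E] in
lemma abs_ind_le (T : Finset (MM E)) (a : MM E) : |ind T a| ≤ 1 := by
  unfold ind; split_ifs <;> simp

omit [NormedSpace ℝ E] in
lemma mem_of_ind_ne {T : Finset (MM E)} {a : MM E} (h : ind T a ≠ 0) : a ∈ T := by
  by_contra h'; exact h (if_neg h')

/-- A single-scale map. -/
noncomputable def bs (i : ℕ) (k : ℤ) (T : Finset (MM E)) (p : MM E) : E :=
  (ww i k p * c.G k (ind T) p) • p.1 i

/-- Admissible sets of cells. -/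
def AdmT (k : ℤ) (T : Finset (MM E)) : Prop := T ⊆ c.C k ∧ ∃ a0, ∀ a ∈ T, c.A.D a0 a < 3 * c.r k

lemma bs_eq (i : ℕ) (k : ℤ) (T : Finset (MM E)) :
    c.bs i k T = c.Win i {k} (fun k' a => if k' = k then ind T a else 0) := by
  funext p
  simp [bs, Win, wh]

lemma AdmT.adm {c : Ctx E} {k : ℤ} {T : Finset (MM E)} (h : c.AdmT k T) :
    c.Adm {k} (fun k' a => if k' = k then ind T a else 0) := by
  obtain ⟨a0, h0⟩ := h.2
  refine ⟨by simp, fun k' a => ?_, a0, fun k' a h1 => ?_⟩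
  · beta_reduce
    split_ifs
    · exact abs_ind_le T a
    · simp
  · beta_reduce at h1
    split_ifs at h1 with h2
    · rw [h2]; exact h0 a (mem_of_ind_ne h1)
    · exact absurd rfl h1

end Ctx

/-- Cutting off where the tail is large. -/
noncomputable def opT (s j : ℕ) (k : ℤ) (Ψ : MM E → E) (p : MM E) : E :=
  chi (2 ^ (s + 1) * tau j p / lo k) • Ψ p

namespace Ctx

variable (c : Ctx E)

/-- Flattening near the address of `a`. -/
noncomputable def opC (q : ℕ) (a : MM E) (Ψ : MM E → E) (p : MM E) : E :=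
  Ψ p - chi (c.A.D p a / RR q) • (phi (RR q) (Ψ p - Ψ a) - phi (RR q) (-Ψ a))

/-- The class of level `s` and depth `q` over the base `(i, k)`. -/
def Cl (i : ℕ) (k : ℤ) : ℕ → ℕ → Set (MM E → E)
  | 0, q => {Ψ | ∃ T, c.AdmT k T ∧ Ψ = fun p => c.P q (c.bs i k T p)}
  | s + 1, q => {Ψ | Ψ ∈ Cl i k s q ∨ ∃ q', q' ≤ q ∧ ∃ Φ ∈ Cl i k s q',
      Ψ = opT s q k Φ ∨ ∃ a ∈ c.Net q, Ψ = c.opC q a Φ}

variable {c}

lemma Cl.lift {i : ℕ} {k : ℤ} {s q : ℕ} {Ψ : MM E → E} (h : Ψ ∈ c.Cl i k s q) :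
    Ψ ∈ c.Cl i k (s + 1) q := Or.inl h

lemma Cl.T {i : ℕ} {k : ℤ} {s q j : ℕ} {Ψ : MM E → E} (h : Ψ ∈ c.Cl i k s q) (hj : q ≤ j) :
    opT s j k Ψ ∈ c.Cl i k (s + 1) j := Or.inr ⟨q, hj, Ψ, h, Or.inl rfl⟩

lemma Cl.C {i : ℕ} {k : ℤ} {s q j : ℕ} {Ψ : MM E → E} (h : Ψ ∈ c.Cl i k s q) (hj : q ≤ j)
    {a : MM E} (ha : a ∈ c.Net j) : c.opC j a Ψ ∈ c.Cl i k (s + 1) j :=
  Or.inr ⟨q, hj, Ψ, h, Or.inr ⟨a, ha, rfl⟩⟩

variable (c) in
lemma zero_mem_Cl (i : ℕ) (k : ℤ) (s q : ℕ) : (fun _ => 0) ∈ c.Cl i k s q := by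
  induction s with
  | zero =>
    refine ⟨∅, ⟨empty_subset _, 0, by simp⟩, funext fun p => ?_⟩
    simp [bs, G, ind]
  | succ s ih => exact Cl.lift ih

lemma Cl_ind {i : ℕ} {k : ℤ} {Pr : ℕ → (MM E → E) → Prop}
    (h0 : ∀ q T, c.AdmT k T → Pr 0 fun p => c.P q (c.bs i k T p))
    (h1 : ∀ s Ψ, Pr s Ψ → Pr (s + 1) Ψ)
    (h2 : ∀ s q j Ψ, Ψ ∈ c.Cl i k s q → Pr s Ψ → Pr (s + 1) (opT s j k Ψ))
    (h3 : ∀ s q a Ψ, Pr s Ψ → Pr (s + 1) (c.opC q a Ψ)) :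
    ∀ s q Ψ, Ψ ∈ c.Cl i k s q → Pr s Ψ := by
  intro s
  induction s with
  | zero => rintro q _ ⟨T, hT, rfl⟩; exact h0 q T hT
  | succ s ih =>
    rintro q Ψ (h | ⟨q', -, Φ, hΦ, rfl | ⟨a, -, rfl⟩⟩)
    · exact h1 s Ψ (ih q Ψ h)
    · exact h2 s q' q Φ hΦ (ih q' Φ hΦ)
    · exact h3 s q a Φ (ih q' Φ hΦ)

variable (c) in
lemma Cl_finite (i : ℕ) (k : ℤ) : ∀ s q, (c.Cl i k s q).Finite := by
  intro s
  induction s with
  | zero =>
    intro q
    refine (((c.C k).powerset.finite_toSet).image fun T p => c.P q (c.bs i k T p)).subset ?_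
    rintro _ ⟨T, hT, rfl⟩
    exact ⟨T, mem_coe.2 (mem_powerset.2 hT.1), rfl⟩
  | succ s ih =>
    intro q
    have h1 : (⋃ q' ∈ Set.Iic q, c.Cl i k s q').Finite :=
      (Set.finite_Iic q).biUnion fun q' _ => ih q'
    refine ((ih q).union ((h1.image (opT s q k)).union
      (Set.Finite.image2 (fun a Φ => c.opC q a Φ) (c.Net q).finite_toSet h1))).subset ?_
    rintro Ψ (h | ⟨q', hq', Φ, hΦ, rfl | ⟨a, ha, rfl⟩⟩)
    · exact Or.inl h
    · exact Or.inr (Or.inl ⟨Φ, Set.mem_biUnion hq' hΦ, rfl⟩)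
    · exact Or.inr (Or.inr ⟨a, ha, Φ, Set.mem_biUnion hq' hΦ, rfl⟩)

lemma norm_opT_le (s j : ℕ) (k : ℤ) (Ψ : MM E → E) (p : MM E) : ‖opT s j k Ψ p‖ ≤ ‖Ψ p‖ := by
  unfold opT
  rw [norm_smul]
  exact mul_le_of_le_one_left (norm_nonneg _) (abs_chi_le _)

variable (c) in
lemma norm_opC_le (q : ℕ) (a : MM E) (Ψ : MM E → E) (p : MM E) : ‖c.opC q a Ψ p‖ ≤ 4 * ‖Ψ p‖ := by
  unfold opC
  refine (norm_sub_le _ _).trans ?_
  rw [norm_smul]
  have h1 := (mul_le_of_le_one_left (norm_nonneg _) (abs_chi_le (c.A.D p a / RR q))).trans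
    (phi_lip (RR_pos q) (Ψ p - Ψ a) (-Ψ a))
  rw [sub_neg_eq_add, sub_add_cancel] at h1
  rw [Real.norm_eq_abs]
  linarith

lemma norm_phi_sub_le (q : ℕ) (u v : E) : ‖phi (RR q) u - phi (RR q) v‖ ≤ 4 * RR q :=
  (norm_sub_le _ _).trans (by linarith [norm_phi_le (RR_pos q) u, norm_phi_le (RR_pos q) v])

variable (c) in
lemma norm_opC_sub_le (q : ℕ) (a : MM E) (Ψ : MM E → E) (p : MM E) :
    ‖c.opC q a Ψ p - Ψ p‖ ≤ 4 * RR q := by
  unfold opC
  rw [sub_sub_cancel_left, norm_neg, norm_smul]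
  exact (mul_le_of_le_one_left (norm_nonneg _) (abs_chi_le _)).trans (norm_phi_sub_le q _ _)

variable (c) in
lemma opC_of_far {q : ℕ} {a : MM E} (Ψ : MM E → E) {p : MM E} (h : 2 * RR q ≤ c.A.D p a) :
    c.opC q a Ψ p = Ψ p := by
  unfold opC
  rw [chi_of_ge ((le_div_iff₀ (RR_pos q)).2 h), zero_smul, sub_zero]

variable (c) in
lemma opC_of_near {q : ℕ} {a : MM E} (Ψ : MM E → E) {p : MM E} (h : c.A.D p a ≤ RR q)
    (h' : ‖Ψ p - Ψ a‖ ≤ RR q) : c.opC q a Ψ p = Ψ a + phi (RR q) (-Ψ a) := by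
  unfold opC
  rw [chi_of_le ((div_le_one (RR_pos q)).2 h), one_smul, phi_of_le (RR_pos q) h']
  abel

variable (c) in
lemma opC_lip (q : ℕ) (a : MM E) (Ψ : MM E → E) {p p' : MM E} {L t : ℝ}
    (h : ‖Ψ p - Ψ p'‖ ≤ L * t) (ht : c.A.D p p' ≤ t) :
    ‖c.opC q a Ψ p - c.opC q a Ψ p'‖ ≤ (4 * L + 4) * t := by
  unfold opC
  rw [sub_sub_sub_comm]
  refine (norm_sub_le _ _).trans ?_
  have h1 := smul_sub_smul_le (chi (c.A.D p a / RR q)) (chi (c.A.D p' a / RR q))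
    (phi (RR q) (Ψ p - Ψ a) - phi (RR q) (-Ψ a)) (phi (RR q) (Ψ p' - Ψ a) - phi (RR q) (-Ψ a))
  rw [sub_sub_sub_cancel_right] at h1
  have h2 := (mul_le_of_le_one_left (norm_nonneg _) (abs_chi_le (c.A.D p a / RR q))).trans
    (phi_lip (RR_pos q) (Ψ p - Ψ a) (Ψ p' - Ψ a))
  rw [sub_sub_sub_cancel_right] at h2
  have h3 : |chi (c.A.D p a / RR q) - chi (c.A.D p' a / RR q)| ≤ t / RR q := by
    refine (chi_lip _ _).trans ?_
    rw [← sub_div, abs_div, abs_of_pos (RR_pos q)]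
    exact div_le_div_of_nonneg_right ((c.A.abs_D_sub p p' a).trans ht) (RR_pos q).le
  have h4 := mul_le_mul h3 (norm_phi_sub_le q (Ψ p' - Ψ a) (-Ψ a)) (norm_nonneg _)
    ((abs_nonneg _).trans h3)
  have h5 : t / RR q * (4 * RR q) = 4 * t := by
    have := RR_pos q
    field_simp
  linarith

lemma opT_lip (s j : ℕ) (k : ℤ) (Ψ : MM E → E) {p p' : MM E} {L L' B t : ℝ}
    (h : ‖Ψ p - Ψ p'‖ ≤ L * t)
    (h' : |chi (2 ^ (s + 1) * tau j p / lo k) - chi (2 ^ (s + 1) * tau j p' / lo k)| ≤ L' * t)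
    (hB : ‖Ψ p'‖ ≤ B) : ‖opT s j k Ψ p - opT s j k Ψ p'‖ ≤ (L + L' * B) * t := by
  unfold opT
  refine (smul_sub_smul_le _ _ _ _).trans ?_
  have h1 := (mul_le_of_le_one_left (norm_nonneg _)
    (abs_chi_le (2 ^ (s + 1) * tau j p / lo k))).trans h
  have h2 := mul_le_mul h' hB (norm_nonneg _) ((abs_nonneg _).trans h')
  linarith

lemma Cl_supp {i : ℕ} {k : ℤ} {s q : ℕ} {Ψ : MM E → E} (h : Ψ ∈ c.Cl i k s q) :
    ∃ a, ∀ p, Ψ p ≠ 0 → (lo k < sig i p ∧ sig i p < hi k) ∧ c.A.D p a < 5 * c.r k := by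
  refine Cl_ind (Pr := fun _ Ψ => ∃ a, ∀ p, Ψ p ≠ 0 →
    (lo k < sig i p ∧ sig i p < hi k) ∧ c.A.D p a < 5 * c.r k) ?_ (fun _ _ h => h) ?_ ?_ s q Ψ h
  · rintro q T ⟨-, a0, h0⟩
    refine ⟨a0, fun p hp => ?_⟩
    have h1 : c.bs i k T p ≠ 0 := fun h => hp (by simp only [h, map_zero])
    obtain ⟨h2, h3⟩ := smul_ne_zero_iff.1 h1
    obtain ⟨a, -, h4, h5⟩ := c.G_ne (right_ne_zero_of_mul h2)
    have h6 := h0 a (mem_of_ind_ne h4)
    have h7 := c.A.D_tri p a a0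
    rw [c.A.D_comm a a0] at h7
    exact ⟨⟨lo_lt_sig (left_ne_zero_of_mul h2) h3, sig_lt_hi (left_ne_zero_of_mul h2)⟩, by linarith⟩
  · rintro s q j Ψ - ⟨a, ha⟩
    exact ⟨a, fun p hp => ha p fun h => hp (by simp only [opT, h, smul_zero])⟩
  · rintro s q a' Ψ ⟨a, ha⟩
    refine ⟨a, fun p hp => ha p fun h => hp ?_⟩
    have := c.norm_opC_le q a' Ψ p
    rw [h, norm_zero, mul_zero] at this
    exact norm_le_zero_iff.1 this

lemma Cl_zero {i : ℕ} {k : ℤ} {s q : ℕ} {Ψ : MM E → E} (h : Ψ ∈ c.Cl i k s q) : Ψ 0 = 0 := by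
  obtain ⟨a, ha⟩ := Cl_supp h
  by_contra h0
  have := (ha 0 h0).1.1
  rw [sig_zero] at this
  exact absurd (lo_pos k) (not_lt.2 this.le)

variable (c) in
lemma bs_eq_smul (i : ℕ) (k : ℤ) (T : Finset (MM E)) (q : ℕ) (p : MM E) :
    c.P q (c.bs i k T p) = c.G k (ind T) p • c.P q (ww i k p • p.1 i) := by
  unfold bs
  rw [mul_comm, mul_smul, map_smul]

lemma Cl_bdd {i : ℕ} {k : ℤ} {s q : ℕ} {Ψ : MM E → E} (h : Ψ ∈ c.Cl i k s q) (p : MM E) :
    ‖Ψ p‖ ≤ 4 ^ s * hi k := by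
  have hk := hi_pos k
  refine Cl_ind (Pr := fun s Ψ => ‖Ψ p‖ ≤ 4 ^ s * hi k) ?_ ?_ ?_ ?_ s q Ψ h
  · intro q T _
    beta_reduce
    rw [c.bs_eq_smul, norm_smul, pow_zero, one_mul]
    exact (mul_le_of_le_one_left (norm_nonneg _) (c.abs_G_le k (abs_ind_le T) p)).trans
      ((c.P_le _ _).trans (norm_ww_smul i k p))
  · intro s Ψ h
    have : (0 : ℝ) < 4 ^ s * hi k := by positivity
    rw [pow_succ]; linarith
  · intro s q j Ψ _ h
    have : (0 : ℝ) < 4 ^ s * hi k := by positivity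
    rw [pow_succ]; linarith [norm_opT_le s j k Ψ p]
  · intro s q a Ψ h
    rw [pow_succ]; linarith [c.norm_opC_le q a Ψ p]

end Ctx

/-- The Lipschitz constant of level `s`. -/
noncomputable def LL : ℕ → ℝ
  | 0 => 2
  | s + 1 => 4 * LL s + 4 + 2 ^ (s + 1) * 2 * 4 ^ s * Real.exp (2 * Lam)

lemma LL_pos : ∀ s, 0 < LL s
  | 0 => two_pos
  | s + 1 => by have := LL_pos s; unfold LL; positivity

namespace Ctx

variable {c : Ctx E}

lemma Cl_lip {i : ℕ} {k : ℤ} {s q : ℕ} {Ψ : MM E → E} (h : Ψ ∈ c.Cl i k s q) (p p' : MM E) :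
    ‖Ψ p - Ψ p'‖ ≤ LL s * dist p p' := by
  have hd : 0 ≤ dist p p' := dist_nonneg
  refine Cl_ind (Pr := fun s Ψ => ‖Ψ p - Ψ p'‖ ≤ LL s * dist p p') ?_ ?_ ?_ ?_ s q Ψ h
  · intro q T hT
    rw [← map_sub, c.bs_eq]
    refine (c.P_le _ _).trans ((c.Win_lip i hT.adm.1 hT.adm.2.1 p p').trans ?_)
    unfold LL
    linarith [norm_fst_le p p']
  · intro s Ψ h
    refine h.trans (mul_le_mul_of_nonneg_right ?_ hd)
    have := LL_pos s
    have : (0 : ℝ) < 2 ^ (s + 1) * 2 * 4 ^ s * Real.exp (2 * Lam) := by positivity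
    rw [LL]; linarith
  · intro s q j Ψ hΨ h
    refine (opT_lip s j k Ψ h (chi_tau_lip (s + 1) j k p p') (Cl_bdd hΨ p')).trans
      (mul_le_mul_of_nonneg_right ?_ hd)
    have := LL_pos s
    have h1 := lo_pos k
    have : 2 ^ (s + 1) * 2 / lo k * (4 ^ s * hi k)
        = 2 ^ (s + 1) * 2 * 4 ^ s * Real.exp (2 * Lam) := by
      rw [hi_eq]; field_simp
    rw [LL]; linarith
  · intro s q a Ψ h
    refine (c.opC_lip q a Ψ h (c.A.D_le p p')).trans (mul_le_mul_of_nonneg_right ?_ hd)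
    have : (0 : ℝ) < 2 ^ (s + 1) * 2 * 4 ^ s * Real.exp (2 * Lam) := by positivity
    rw [LL]; linarith

lemma Cl_DL {i : ℕ} {k : ℤ} {s q : ℕ} {Ψ : MM E → E} (h : Ψ ∈ c.Cl i k s q) : DL c.A Ψ := by
  have hk := hi_pos k
  refine Cl_ind (Pr := fun _ Ψ => DL c.A Ψ) ?_ (fun _ _ h => h) ?_ ?_ s q Ψ h
  · intro q T _
    obtain ⟨Q, hQ0, hQ⟩ := c.hX i k q
    have := eta_pos
    refine ⟨Q + eta * Real.exp (Lam * k) * hi k, by positivity, fun p p' => ?_⟩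
    simp only [c.bs_eq_smul]
    refine (smul_sub_smul_le _ _ _ _).trans ?_
    have h1 := (mul_le_of_le_one_left (norm_nonneg _) (c.abs_G_le k (abs_ind_le T) p)).trans
      (hQ p p')
    have h2 := mul_le_mul (c.G_lip k (abs_ind_le T) p p') ((c.P_le q _).trans (norm_ww_smul i k p'))
      (norm_nonneg _) ((abs_nonneg _).trans (c.G_lip k (abs_ind_le T) p p'))
    linarith
  · rintro s q j Ψ hΨ ⟨Q, hQ0, hQ⟩
    obtain ⟨Q', hQ0', hQ'⟩ := c.hT (s + 1) j k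
    exact ⟨Q + Q' * (4 ^ s * hi k), by positivity, fun p p' =>
      opT_lip s j k Ψ (hQ p p') (hQ' p p') (Cl_bdd hΨ p')⟩
  · rintro s q a Ψ ⟨Q, hQ0, hQ⟩
    exact ⟨4 * Q + 4, by positivity, fun p p' => c.opC_lip q a Ψ (hQ p p') le_rfl⟩

end Ctx

end Crest.Agent.R91
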