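import Crest.Agent.R91.Norm

/-! Killing lemmas: witnesses whose signed sums stay Lipschitz cannot exist (row 91). -/

set_option autoImplicit false

namespace Crest.Agent.R91

open Filter Topology Finset

lemma extract {F : Filter ℕ} [F.NeBot] (hF : F ≤ atTop) {P : ℕ → Prop} {R : ℕ → ℕ → Prop}
    (hP : ∀ᶠ n in F, P n) (hR : ∀ᶠ n in F, ∀ᶠ n' in F, R n n') :
    ∃ φ : ℕ → ℕ, StrictMono φ ∧ (∀ j, P (φ j)) ∧ ∀ j j', j < j' → R (φ j) (φ j') := by
  obtain ⟨f, hf, hr⟩ := exists_seq_of_forall_finset_exists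
    (fun n => P n ∧ ∀ᶠ n' in F, R n n') (fun n n' => n < n' ∧ R n n') fun s hs => by
      have h1 : ∀ᶠ y in F, ∀ x ∈ s, x < y ∧ R x y :=
        (eventually_all_finset s).2 fun x hx => ((eventually_gt_atTop x).filter_mono hF).and (hs x hx).2
      obtain ⟨y, hy⟩ := ((hP.and hR).and h1).exists
      exact ⟨y, hy.1, hy.2⟩
  exact ⟨f, fun j j' h => (hr j j' h).1, fun j => (hf j).1, fun j j' h => (hr j j' h).2⟩

lemma sum_disj_le {M : Type} [PseudoMetricSpace M] {g : ℕ → M → ℝ} {L : ℝ} (hL : 0 ≤ L)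
    (h1 : ∀ n p q, |g n p - g n q| ≤ L * dist p q)
    (h2 : ∀ n n', n < n' → ∀ p, g n p = 0 ∨ g n' p = 0) (N : ℕ) (p q : M) :
    ∑ n ∈ range N, |g n p - g n q| ≤ 2 * L * dist p q := by
  classical
  have hc : ∀ p, ((range N).filter fun n => g n p ≠ 0).card ≤ 1 := fun p => by
    refine card_le_one.2 fun a ha b hb => ?_
    by_contra hab
    rcases lt_or_gt_of_ne hab with h | h
    · exact (h2 a b h p).elim (mem_filter.1 ha).2 (mem_filter.1 hb).2
    · exact (h2 b a h p).elim (mem_filter.1 hb).2 (mem_filter.1 ha).2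
  set S := ((range N).filter fun n => g n p ≠ 0) ∪ ((range N).filter fun n => g n q ≠ 0) with hS
  have hsub : S ⊆ range N := union_subset (filter_subset _ _) (filter_subset _ _)
  rw [← sum_subset hsub fun n hn hn' => by
    simp only [hS, mem_union, mem_filter, hn, true_and, not_or, not_not] at hn'
    rw [hn'.1, hn'.2, sub_self, abs_zero]]
  refine (sum_le_sum fun n _ => h1 n p q).trans ?_
  rw [sum_const, nsmul_eq_mul, mul_assoc]
  refine mul_le_mul_of_nonneg_right ?_ (mul_nonneg hL dist_nonneg)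
  exact_mod_cast (card_union_le _ _).trans (add_le_add (hc p) (hc q))

lemma sum_nest_le {M : Type} [PseudoMetricSpace M] {g : ℕ → M → ℝ} {L : ℝ} (hL : 0 ≤ L)
    {U : ℕ → Set M} {κ γ : ℕ → ℝ} (h1 : ∀ n p q, |g n p - g n q| ≤ L * dist p q)
    (hκ : ∀ n, 0 < κ n) (hU : ∀ n, ∀ p ∈ U n, ∀ q ∈ U n, g n p = g n q)
    (hγ : ∀ n p, |g n p| ≤ γ n) (hs : ∀ n, γ (n + 1) ≤ κ n / 2 ∧ κ (n + 1) ≤ κ n / 2)
    (hm : ∀ n n', n < n' → ∀ p', g n' p' ≠ 0 → ∀ p, p ∉ U n → κ n ≤ dist p p')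
    (N : ℕ) (p q : M) : ∑ n ∈ range N, |g n p - g n q| ≤ (L + 1) * dist p q := by
  have A : ∀ N j, ∑ n ∈ range N, γ (j + 1 + n) ≤ κ j := by
    intro N
    induction N with
    | zero => intro j; simpa using (hκ j).le
    | succ N ih =>
      intro j
      rw [sum_range_succ']
      have := ih (j + 1)
      simp only [add_assoc, add_comm 1] at this ⊢
      linarith [(hs j).1, (hs j).2]
  have B : ∀ N j p q, p ∉ U j → ∑ n ∈ range N, |g (j + 1 + n) p - g (j + 1 + n) q| ≤ dist p q := by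
    intro N j p q hp
    have h0 : ∀ n, g (j + 1 + n) p = 0 := fun n => by
      by_contra h
      have := hm j _ (by omega) p h p hp
      rw [dist_self] at this
      exact absurd (hκ j) (not_lt.2 this)
    simp only [h0, zero_sub, abs_neg]
    by_cases h : ∀ n, g (j + 1 + n) q = 0
    · simp [h]
    · obtain ⟨n, hn⟩ := not_forall.1 h
      exact (sum_le_sum fun n _ => hγ _ q).trans ((A N j).trans (hm j _ (by omega) q hn p hp))
  have C : ∀ N j, ∑ n ∈ range N, |g (j + n) p - g (j + n) q| ≤ (L + 1) * dist p q := by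
    intro N
    induction N with
    | zero => intro j; simp; positivity
    | succ N ih =>
      intro j
      rw [sum_range_succ', add_zero]
      have e : ∀ n, j + (n + 1) = j + 1 + n := fun n => by omega
      rw [sum_congr rfl fun n _ => by rw [e n]]
      by_cases hp : p ∈ U j
      · by_cases hq : q ∈ U j
        · rw [hU j p hp q hq, sub_self, abs_zero, add_zero]; exact ih (j + 1)
        · have := B N j q p hq
          rw [dist_comm, sum_congr rfl fun n _ => abs_sub_comm (g (j + 1 + n) q) _] at this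
          linarith [h1 j p q]
      · linarith [B N j p q hp, h1 j p q]
  simpa using C N 0

variable {E : Type} [NormedAddCommGroup E] [NormedSpace ℝ E]

namespace Ctx

variable (c : Ctx E)

/-- A scalar witness for the molecule `μ`. -/
def Good (a L t : ℝ) (μ : c.Mol) (g : MM E → ℝ) : Prop :=
  g 0 = 0 ∧ (∀ ν, |c.pair g ν| ≤ a * c.NN ν) ∧ t ≤ c.pair g μ ∧
    ∀ p q, |g p - g q| ≤ L * dist p q

variable {c}

lemma kill {μ : ℕ → c.Mol} (hμ : WUC μ) {g : ℕ → MM E → ℝ} {a L L' t : ℝ} (ha : 0 < a)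
    (hL : 0 < L') (ht : 0 < t) (hg : ∀ n, c.Good a L t (μ n) (g n))
    (h : ∀ N p q, ∑ n ∈ range N, |g n p - g n q| ≤ L' * dist p q) : False := by
  obtain ⟨C, hC0, hC⟩ := hμ.signs
  obtain ⟨m, hm⟩ := exists_pow_lt_of_lt_one (show 0 < t / 2 / (a * C) by positivity)
    (show (1 / 2 : ℝ) < 1 by norm_num)
  obtain ⟨N, hN⟩ := exists_nat_gt (2 ^ (m + 1) * (1000 * L') * C / (t / 2))
  have hN0 : (0 : ℝ) < N := lt_trans (by positivity) hN
  obtain ⟨ε, hε, hs⟩ := exists_signs (fun n n' => c.pair (g n) (μ n')) N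
  have habs : ∀ n, |ε n| = 1 := fun n => by rcases hε n with h | h <;> simp [h]
  have h1 : Lp (1000 * L') fun p => ∑ n ∈ range N, ε n • g n p := by
    refine Lp.of_dist hL.le (by simp [fun n => (hg n).1]) fun p q => le_trans ?_ (h N p q)
    rw [← sum_sub_distrib]
    refine (abs_sum_le_sum_abs _ _).trans (le_of_eq (sum_congr rfl fun n _ => ?_))
    rw [← smul_sub, smul_eq_mul, abs_mul, habs, one_mul]
  have h2 : ∀ ν, c.pair (fun p => ∑ n ∈ range N, ε n • g n p) ν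
      = ∑ n ∈ range N, ε n * c.pair (g n) ν := fun ν => by
    rw [c.pair_sum (range N) (fun n p => ε n • g n p)]
    exact sum_congr rfl fun n _ => c.pair_smul _ _ _
  have h3 := c.key (by positivity) (show 0 < N * a by positivity) h1 (fun ν => by
    rw [h2]
    refine (abs_sum_le_sum_abs _ _).trans
      ((sum_le_sum (g := fun _ => a * c.NN ν) fun n _ => ?_).trans_eq ?_)
    · rw [abs_mul, habs, one_mul]; exact (hg n).2.1 ν
    · simp [mul_assoc]) m (∑ n ∈ range N, ε n • μ n)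
  have h4 : N * t ≤ c.pair (fun p => ∑ n ∈ range N, ε n • g n p) (∑ n ∈ range N, ε n • μ n) := by
    rw [h2]
    refine le_trans (le_trans (by simp) (sum_le_sum (f := fun _ => t) fun n _ => (hg n).2.2.1))
      (hs.trans_eq (sum_congr rfl fun n _ => ?_))
    rw [map_sum, mul_sum]
    exact sum_congr rfl fun n' _ => by rw [map_smul, smul_eq_mul, mul_assoc]
  have h5 := (h4.trans (le_abs_self _)).trans
    (h3.trans (mul_le_mul_of_nonneg_left (hC N ε hε) (by positivity)))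
  rw [div_lt_iff₀ (by positivity)] at hN
  rw [lt_div_iff₀ (by positivity)] at hm
  have h6 : (1 / 2 : ℝ) ^ (m + 1) * (N * a) * C = N * ((1 / 2) ^ m * (a * C)) / 2 := by ring
  have h7 : (N : ℝ) * ((1 / 2) ^ m * (a * C)) ≤ N * (t / 2) :=
    mul_le_mul_of_nonneg_left hm.le hN0.le
  nlinarith

variable (c) in
/-- Membership in the level `s` of the class. -/
def InC (s : ℕ) (Φ : MM E → E) : Prop := ∃ i k q, Φ ∈ c.Cl i k s q

variable (c) in
/-- Differences of two maps of level `s`. -/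
def Dif (s : ℕ) (Δ : MM E → E) : Prop :=
  ∃ Φ Ψ, c.InC s Φ ∧ c.InC s Ψ ∧ Δ = fun p => Φ p - Ψ p

lemma Dif.good {s : ℕ} {Δ : MM E → E} (h : c.Dif s Δ) {μ : c.Mol} {t : ℝ}
    (ht : t ≤ ‖c.pair Δ μ‖) :
    ∃ ξ : E →L[ℝ] ℝ, ‖ξ‖ ≤ 1 ∧ c.Good (2 / th s) (2 * LL s) t μ fun p => ξ (Δ p) := by
  obtain ⟨ξ, hξ, h1⟩ := exists_dual_vector'' ℝ (c.pair Δ μ)
  obtain ⟨Φ, Ψ, ⟨i, k, q, hΦ⟩, ⟨i', k', q', hΨ⟩, rfl⟩ := h
  refine ⟨ξ, hξ, by simp [Cl_zero hΦ, Cl_zero hΨ], fun ν => ?_, ?_, fun p p' => ?_⟩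
  · rw [← c.map_pair, c.pair_sub, map_sub]
    refine (abs_sub _ _).trans
      ((add_le_add (abs_pair_Cl_le hΦ hξ ν) (abs_pair_Cl_le hΨ hξ ν)).trans_eq ?_)
    ring
  · rw [← c.map_pair, h1]; exact ht
  · rw [← map_sub, sub_sub_sub_comm]
    refine (abs_dual_le hξ _).trans ((norm_sub_le _ _).trans ?_)
    linarith [Cl_lip hΦ p p', Cl_lip hΨ p p']

lemma kill_disj {F : Filter ℕ} [F.NeBot] (hF : F ≤ atTop) {μ : ℕ → c.Mol} (hμ : WUC μ) {s : ℕ}
    {Δ : ℕ → MM E → E} {t : ℝ} (ht : 0 < t)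
    (h1 : ∀ᶠ n in F, c.Dif s (Δ n) ∧ t ≤ ‖c.pair (Δ n) (μ n)‖)
    (h2 : ∀ᶠ n in F, ∀ᶠ n' in F, ∀ p, Δ n p = 0 ∨ Δ n' p = 0) : False := by
  obtain ⟨φ, hφ, h3, h4⟩ := extract hF h1 h2
  choose ξ _ hξ using fun j => (h3 j).1.good (h3 j).2
  have := th_pos s
  have := LL_pos s
  refine kill (hμ.comp hφ.injective) (by positivity) (show 0 < 2 * (2 * LL s) by positivity) ht hξ
    (sum_disj_le (by positivity) (fun n => (hξ n).2.2.2) fun n n' h p => ?_)
  exact (h4 n n' h p).imp (fun h => by simp only [h, map_zero]) fun h => by simp only [h, map_zero]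

lemma kill_nest {F : Filter ℕ} [F.NeBot] (hF : F ≤ atTop) {μ : ℕ → c.Mol} (hμ : WUC μ) {s : ℕ}
    {Δ : ℕ → MM E → E} {t : ℝ} (ht : 0 < t) {U : ℕ → Set (MM E)} {κ γ : ℕ → ℝ}
    (h1 : ∀ᶠ n in F, (c.Dif s (Δ n) ∧ t ≤ ‖c.pair (Δ n) (μ n)‖) ∧
      (∀ p ∈ U n, ∀ q ∈ U n, Δ n p = Δ n q) ∧ ∀ p, ‖Δ n p‖ ≤ γ n)
    (hκ0 : ∀ n, 0 < κ n) (hκ : Tendsto κ F (𝓝 0)) (hγ : Tendsto γ F (𝓝 0))
    (h2 : ∀ᶠ n in F, ∀ᶠ n' in F, ∀ p', Δ n' p' ≠ 0 → ∀ p, p ∉ U n → κ n ≤ dist p p') :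
    False := by
  obtain ⟨φ, hφ, h3, h4⟩ := extract (R := fun n n' => (γ n' ≤ κ n / 2 ∧ κ n' ≤ κ n / 2) ∧
      ∀ p', Δ n' p' ≠ 0 → ∀ p, p ∉ U n → κ n ≤ dist p p') hF h1 (by
    filter_upwards [h2] with n hn
    exact ((hγ.eventually (ge_mem_nhds (half_pos (hκ0 n)))).and
      (hκ.eventually (ge_mem_nhds (half_pos (hκ0 n))))).and hn)
  choose ξ hξ1 hξ using fun j => (h3 j).1.1.good (h3 j).1.2
  have := th_pos s
  have := LL_pos s
  refine kill (hμ.comp hφ.injective) (by positivity) (show 0 < 2 * LL s + 1 by positivity) ht hξ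
    (sum_nest_le (U := fun j => U (φ j)) (κ := fun j => κ (φ j)) (γ := fun j => γ (φ j))
      (by positivity) (fun n => (hξ n).2.2.2) (fun n => hκ0 _)
      (fun n p hp q hq => congrArg (ξ n) ((h3 n).2.1 p hp q hq))
      (fun n p => (abs_dual_le (hξ1 n) _).trans ((h3 n).2.2 p))
      (fun n => (h4 n (n + 1) (Nat.lt_succ_self n)).1) fun n n' h p' hp' => ?_)
  exact (h4 n n' h).2 p' fun h0 => hp' (by simp only [h0, map_zero])

/-- Witnesses living where tails are large are killed by a tail cut-off. -/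
lemma kill_T {F : Filter ℕ} [F.NeBot] (hF : F ≤ atTop) {μ : ℕ → c.Mol} (hμ : WUC μ) {s : ℕ}
    {k : ℕ → ℤ} {Φ Ψ : ℕ → MM E → E} {t : ℝ} (ht : 0 < t)
    (h1 : ∀ᶠ n in F, (∃ i q, Φ n ∈ c.Cl i (k n) s q) ∧ (∃ i q, Ψ n ∈ c.Cl i (k n) s q) ∧
      t ≤ ‖c.pair (fun p => Φ n p - Ψ n p) (μ n)‖)
    (h2 : ∀ᶠ n in F, ∀ j, ∀ᶠ n' in F, ∀ p, Φ n' p ≠ Ψ n' p → lo (k n) ≤ 2 ^ s * tau j p) :
    False := by
  have hj : ∀ n, ∃ j, ((∃ i q, Φ n ∈ c.Cl i (k n) s q) ∧ (∃ i q, Ψ n ∈ c.Cl i (k n) s q) ∧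
      t ≤ ‖c.pair (fun p => Φ n p - Ψ n p) (μ n)‖) →
      c.Dif (s + 1) (fun p => opT s j (k n) (Φ n) p - opT s j (k n) (Ψ n) p) ∧
        t ≤ ‖c.pair (fun p => opT s j (k n) (Φ n) p - opT s j (k n) (Ψ n) p) (μ n)‖ := by
    intro n
    by_cases h : (∃ i q, Φ n ∈ c.Cl i (k n) s q) ∧ (∃ i q, Ψ n ∈ c.Cl i (k n) s q) ∧
      t ≤ ‖c.pair (fun p => Φ n p - Ψ n p) (μ n)‖
    · obtain ⟨⟨i, q, hΦ⟩, ⟨i', q', hΨ⟩, h3⟩ := h
      have hlo := lo_pos (k n)
      have h4 : ∀ᶠ j in atTop, ∀ p ∈ (μ n).co.support, tau j p ≤ lo (k n) / 2 ^ (s + 1) :=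
        (eventually_all_finset _).2 fun p _ => tau_small p (by positivity)
      obtain ⟨j, h5, h6, h7⟩ :=
        (h4.and ((eventually_ge_atTop q).and (eventually_ge_atTop q'))).exists
      refine ⟨j, fun _ => ⟨⟨_, _, ⟨i, _, j, Cl.T hΦ h6⟩, ⟨i', _, j, Cl.T hΨ h7⟩, rfl⟩, ?_⟩⟩
      refine h3.trans_eq (congrArg _ (c.pair_congr fun p hp => ?_))
      have h8 := h5 p hp
      rw [le_div_iff₀' (by positivity)] at h8
      unfold opT
      rw [chi_of_le ((div_le_one hlo).2 h8), one_smul, one_smul]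
    · exact ⟨0, fun h' => absurd h' h⟩
  choose j hj using hj
  refine kill_disj hF hμ ht (h1.mono hj) ?_
  filter_upwards [h2] with n hn
  filter_upwards [hn (j n)] with n' hn' p
  by_cases h : Φ n' p = Ψ n' p
  · right; unfold opT; rw [h, sub_self]
  · left
    have h3 := hn' p h
    unfold opT
    rw [chi_of_ge, zero_smul, zero_smul, sub_self]
    rw [le_div_iff₀ (lo_pos _), pow_succ]
    linarith

/-- Small witnesses living near one address are killed by flattening. -/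
lemma kill_C (F : Ultrafilter ℕ) (hF : (F : Filter ℕ) ≤ atTop) {μ : ℕ → c.Mol} (hμ : WUC μ)
    {s : ℕ} {Φ Ψ : ℕ → MM E → E} {t : ℝ} (ht : 0 < t) {ρ : ℕ → ℝ} (hρ : Tendsto ρ F (𝓝 0))
    (h1 : ∀ᶠ n in F, c.InC s (Φ n) ∧ c.InC s (Ψ n) ∧
      t ≤ ‖c.pair (fun p => Φ n p - Ψ n p) (μ n)‖ ∧ (∀ p, ‖Φ n p - Ψ n p‖ ≤ ρ n) ∧
      ∃ b, ∀ p, Φ n p ≠ Ψ n p → c.A.D p b ≤ ρ n) : False := by
  have hb : ∀ n, ∃ b, (∃ b, ∀ p, Φ n p ≠ Ψ n p → c.A.D p b ≤ ρ n) →
      ∀ p, Φ n p ≠ Ψ n p → c.A.D p b ≤ ρ n := fun n => by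
    by_cases h : ∃ b, ∀ p, Φ n p ≠ Ψ n p → c.A.D p b ≤ ρ n
    · exact ⟨h.choose, fun _ => h.choose_spec⟩
    · exact ⟨0, fun h' => absurd h' h⟩
  choose b hb using hb
  have ha : ∀ q, ∃ a ∈ c.Net q, ∀ᶠ n in F, c.A.D (b n) a ≤ RR q ^ 2 := fun q =>
    (Ultrafilter.eventually_exists_mem_iff (c.Net q).finite_toSet).1
      (Eventually.of_forall fun n => c.Net_net q (b n))
  choose a ha1 ha2 using ha
  have haa : ∀ q q', c.A.D (a q') (a q) ≤ RR q ^ 2 + RR q' ^ 2 := fun q q' => by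
    obtain ⟨n, h1, h2⟩ := ((ha2 q).and (ha2 q')).exists
    have := c.A.D_tri (a q') (b n) (a q)
    rw [c.A.D_comm (a q') (b n)] at this
    linarith
  have hq : ∀ n, ∃ q, n ≤ q ∧ (c.InC s (Φ n) ∧ c.InC s (Ψ n) ∧
      t ≤ ‖c.pair (fun p => Φ n p - Ψ n p) (μ n)‖ →
      (c.Dif (s + 1) (fun p => c.opC q (a q) (Φ n) p - c.opC q (a q) (Ψ n) p) ∧
        t / 2 ≤ ‖c.pair (fun p => c.opC q (a q) (Φ n) p - c.opC q (a q) (Ψ n) p) (μ n)‖) ∧
      ∀ p, c.A.D p (a q) ≤ 4 * RR q ^ 2 → ∀ p', c.A.D p' (a q) ≤ 4 * RR q ^ 2 →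
        c.opC q (a q) (Φ n) p - c.opC q (a q) (Ψ n) p
          = c.opC q (a q) (Φ n) p' - c.opC q (a q) (Ψ n) p') := by
    intro n
    by_cases h : c.InC s (Φ n) ∧ c.InC s (Ψ n) ∧ t ≤ ‖c.pair (fun p => Φ n p - Ψ n p) (μ n)‖
    · obtain ⟨⟨i, k, q1, hΦ⟩, ⟨i', k', q2, hΨ⟩, h3⟩ := h
      obtain ⟨Q1, hQ1, hL1⟩ := Cl_DL hΦ
      obtain ⟨Q2, hQ2, hL2⟩ := Cl_DL hΨ
      have e1 : ∀ᶠ q in atTop, RR q * (4 * (Q1 + Q2 + 1)) < 1 := by
        have := RR_tendsto.mul_const (4 * (Q1 + Q2 + 1))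
        rw [zero_mul] at this
        exact this.eventually (gt_mem_nhds one_pos)
      have e2 : ∀ᶠ q in atTop, ∑ p ∈ (μ n).co.support, |(μ n).co p| * (8 * RR q) < t / 2 := by
        have := tendsto_finsetSum (μ n).co.support fun p _ =>
          (RR_tendsto.const_mul 8).const_mul |(μ n).co p|
        simp only [mul_zero, sum_const_zero] at this
        exact this.eventually (gt_mem_nhds (half_pos ht))
      obtain ⟨q, ⟨h4, h5⟩, h6, h7, h8⟩ := ((e1.and e2).and ((eventually_ge_atTop n).and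
        ((eventually_ge_atTop q1).and (eventually_ge_atTop q2)))).exists
      refine ⟨q, h6, fun _ => ⟨⟨⟨_, _, ⟨i, k, q, Cl.C hΦ h7 (ha1 q)⟩,
        ⟨i', k', q, Cl.C hΨ h8 (ha1 q)⟩, rfl⟩, ?_⟩, ?_⟩⟩
      · have h9 := c.norm_pair_le (Φ := fun p => (Φ n p - Ψ n p)
            - (c.opC q (a q) (Φ n) p - c.opC q (a q) (Ψ n) p)) (B := fun _ => 8 * RR q)
          (fun p => by
            rw [sub_sub_sub_comm]
            refine (norm_sub_le _ _).trans ?_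
            rw [norm_sub_rev, norm_sub_rev (Ψ n p)]
            linarith [c.norm_opC_sub_le q (a q) (Φ n) p, c.norm_opC_sub_le q (a q) (Ψ n) p]) (μ n)
        rw [c.pair_sub (fun p => Φ n p - Ψ n p)] at h9
        linarith [norm_sub_norm_le (c.pair (fun p => Φ n p - Ψ n p) (μ n))
          (c.pair (fun p => c.opC q (a q) (Φ n) p - c.opC q (a q) (Ψ n) p) (μ n))]
      · have hR := RR_pos q
        have key : ∀ p, c.A.D p (a q) ≤ 4 * RR q ^ 2 →
            c.opC q (a q) (Φ n) p - c.opC q (a q) (Ψ n) p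
              = (Φ n (a q) + phi (RR q) (-Φ n (a q))) - (Ψ n (a q) + phi (RR q) (-Ψ n (a q))) := by
          intro p hp
          have d0 := c.A.D_nonneg p (a q)
          have d1 : (Q1 + Q2 + 1) * c.A.D p (a q) ≤ RR q := by
            refine (mul_le_mul_of_nonneg_left hp (by positivity)).trans ?_
            nlinarith
          rw [c.opC_of_near _ (by nlinarith) ((hL1 p _).trans (by nlinarith)),
            c.opC_of_near _ (by nlinarith) ((hL2 p _).trans (by nlinarith))]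
        intro p hp p' hp'
        rw [key p hp, key p' hp']
    · exact ⟨n, le_rfl, fun h' => absurd h' h⟩
  choose q hq1 hq2 using hq
  have hR : Tendsto (fun n => RR (q n)) F (𝓝 0) :=
    RR_tendsto.comp (tendsto_atTop_mono hq1 (tendsto_id'.2 hF))
  refine kill_nest (s := s + 1) hF hμ (half_pos ht)
    (Δ := fun n p => c.opC (q n) (a (q n)) (Φ n) p - c.opC (q n) (a (q n)) (Ψ n) p)
    (U := fun n => {p | c.A.D p (a (q n)) ≤ 4 * RR (q n) ^ 2}) (κ := fun n => RR (q n) ^ 2)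
    (γ := fun n => ρ n + 8 * RR (q n)) ?_ (fun n => pow_pos (RR_pos _) 2)
    (by simpa using hR.pow 2) (by simpa using hρ.add (hR.const_mul 8)) ?_
  · filter_upwards [h1] with n hn
    obtain ⟨h2, h3⟩ := hq2 n ⟨hn.1, hn.2.1, hn.2.2.1⟩
    refine ⟨h2, fun p hp p' hp' => h3 p hp p' hp', fun p => ?_⟩
    have e : c.opC (q n) (a (q n)) (Φ n) p - c.opC (q n) (a (q n)) (Ψ n) p
        = (Φ n p - Ψ n p) + ((c.opC (q n) (a (q n)) (Φ n) p - Φ n p)
          - (c.opC (q n) (a (q n)) (Ψ n) p - Ψ n p)) := by abel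
    rw [e]
    refine (norm_add_le _ _).trans (add_le_add (hn.2.2.2.1 p) ((norm_sub_le _ _).trans ?_))
    linarith [c.norm_opC_sub_le (q n) (a (q n)) (Φ n) p, c.norm_opC_sub_le (q n) (a (q n)) (Ψ n) p]
  · refine Eventually.of_forall fun n => ?_
    have hpos : 0 < RR (q n) ^ 2 := pow_pos (RR_pos _) 2
    have e1 : Tendsto (fun n' => 2 * RR (q n') + RR (q n') ^ 2) F (𝓝 0) := by
      simpa using (hR.const_mul 2).add (hR.pow 2)
    filter_upwards [h1, ha2 (q n), hρ.eventually (ge_mem_nhds hpos),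
      e1.eventually (ge_mem_nhds hpos)] with n' h2 h3 h4 h5 p' hp' p hp
    have h6 : c.A.D p' (a (q n)) ≤ 2 * RR (q n) ^ 2 := by
      by_cases h : 2 * RR (q n') ≤ c.A.D p' (a (q n'))
      · rw [c.opC_of_far _ h, c.opC_of_far _ h, sub_ne_zero] at hp'
        have := hb n' h2.2.2.2.2 p' hp'
        linarith [c.A.D_tri p' (b n') (a (q n))]
      · linarith [c.A.D_tri p' (a (q n')) (a (q n)), haa (q n) (q n'), not_le.1 h]
    have h7 : 4 * RR (q n) ^ 2 < c.A.D p (a (q n)) := not_le.1 hp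
    linarith [c.A.D_tri p p' (a (q n)), c.A.D_le p p']

end Ctx

end Crest.Agent.R91
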