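import Crest.Agent.R91.Seq

/-! The swindle of row 91: from an approximate lifting to a bi-Lipschitz bijection. -/

set_option autoImplicit false

namespace Crest.Agent.R91

open Filter Topology Finset

/-- Writing (`J`) and reading (`r`) maps with small errors. -/
structure Lift (Z X : Type) [NormedAddCommGroup Z] [NormedAddCommGroup X] where
  J : Z → X → Z
  r : Z → X → X
  J_zero : J 0 0 = 0
  r_zero : r 0 0 = 0
  hJ : ∀ ζ x ζ' x', ‖J ζ x - J ζ' x'‖ ≤ (1 + 1 / 1000) * ‖x - x'‖ + 2 / 1000 * ‖ζ - ζ'‖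
  hr : ∀ ζ x ζ' x', ‖r ζ x - r ζ' x'‖ ≤ (1 + 1 / 1000) * ‖ζ - ζ'‖ + 1 / 1000 * ‖x - x'‖
  hR : ∀ ζ x ζ' x', ‖(r ζ x - x) - (r ζ' x' - x')‖
    ≤ ‖(ζ - J ζ x) - (ζ' - J ζ' x')‖ + 1 / 1000 * (‖x - x'‖ + ‖ζ - ζ'‖)

lemma seq_upper {a b c : ℕ → ℝ} (hb : ∀ n, 0 ≤ b n) (hc : ∀ n, 0 ≤ c n)
    (h1 : ∀ n, a n ≤ c n + ((1 + 1 / 1000) * b n + 2 / 1000 * a n))
    (h2 : ∀ n, b (n + 1) ≤ 2 * (c n + 1 / 1000 * (b n + a n))) (N : ℕ) :
    ∑ n ∈ range N, a n ≤ 76 / 25 * (b 0 + ∑ n ∈ range N, c n) ∧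
      ∑ n ∈ range N, b n ≤ 4 * (b 0 + ∑ n ∈ range N, c n) := by
  have s1 := sum_le_sum (s := range N) fun n _ => h1 n
  have s2 := sum_le_sum (s := range N) fun n _ => h2 n
  simp only [sum_add_distrib, ← mul_sum] at s1 s2
  have s3 : ∑ n ∈ range N, b n + b N = ∑ n ∈ range N, b (n + 1) + b 0 := by
    rw [← sum_range_succ, sum_range_succ']
  have s4 : 0 ≤ ∑ n ∈ range N, c n := sum_nonneg fun n _ => hc n
  have := hb N
  have := hb 0
  constructor <;> linarith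

lemma seq_lower {a b c : ℕ → ℝ} (ha : ∀ n, 0 ≤ a n) (hb : ∀ n, 0 ≤ b n)
    (h1 : ∀ n, b n ≤ b (n + 1) / 2 + ((1 + 1 / 1000) * a n + 1 / 1000 * b n))
    (h2 : ∀ n, c n ≤ a n + ((1 + 1 / 1000) * b n + 2 / 1000 * a n)) (N : ℕ) :
    b 0 + ∑ n ∈ range N, c n ≤ 21 / 4 * ∑ n ∈ range N, a n + 3 * b N := by
  have s1 := sum_le_sum (s := range N) fun n _ => h1 n
  have s2 := sum_le_sum (s := range N) fun n _ => h2 n
  simp only [sum_add_distrib, ← mul_sum, ← sum_div] at s1 s2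
  have s3 : ∑ n ∈ range N, b n + b N = ∑ n ∈ range N, b (n + 1) + b 0 := by
    rw [← sum_range_succ, sum_range_succ']
  have s4 : 0 ≤ ∑ n ∈ range N, a n := sum_nonneg fun n _ => ha n
  have s5 : 0 ≤ ∑ n ∈ range N, b (n + 1) := sum_nonneg fun n _ => hb _
  have := hb N
  have := hb 0
  linarith

namespace Lift

variable {Z X : Type} [NormedAddCommGroup Z] [NormedAddCommGroup X] [NormedSpace ℝ X]
  (L : Lift Z X)

/-- The relation between the sequences of the swindle. -/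
def Graph (x : ℕ → X) (ζ z : ℕ → Z) : Prop :=
  ∀ n, z n = ζ n - L.J (ζ n) (x n) ∧ x (n + 1) = (2 : ℝ) • (x n - L.r (ζ n) (x n))

lemma graph_zero : L.Graph 0 0 0 := fun n => by simp [L.J_zero, L.r_zero]

variable {L}

lemma Graph.upper {x x' : ℕ → X} {ζ ζ' z z' : ℕ → Z} (h : L.Graph x ζ z) (h' : L.Graph x' ζ' z')
    (N : ℕ) :
    ∑ n ∈ range N, ‖ζ n - ζ' n‖ ≤ 76 / 25 * (‖x 0 - x' 0‖ + ∑ n ∈ range N, ‖z n - z' n‖) ∧
      ∑ n ∈ range N, ‖x n - x' n‖ ≤ 4 * (‖x 0 - x' 0‖ + ∑ n ∈ range N, ‖z n - z' n‖) := by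
  refine seq_upper (a := fun n => ‖ζ n - ζ' n‖) (b := fun n => ‖x n - x' n‖)
    (c := fun n => ‖z n - z' n‖) (fun _ => norm_nonneg _) (fun _ => norm_nonneg _)
    (fun n => ?_) (fun n => ?_) N
  · have e : ζ n - ζ' n = (z n - z' n) + (L.J (ζ n) (x n) - L.J (ζ' n) (x' n)) := by
      rw [(h n).1, (h' n).1]; abel
    calc ‖ζ n - ζ' n‖ = ‖(z n - z' n) + (L.J (ζ n) (x n) - L.J (ζ' n) (x' n))‖ := by rw [← e]
      _ ≤ _ := (norm_add_le _ _).trans (add_le_add_right (L.hJ ..) _)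
  · have e : x (n + 1) - x' (n + 1)
        = (-2 : ℝ) • ((L.r (ζ n) (x n) - x n) - (L.r (ζ' n) (x' n) - x' n)) := by
      rw [(h n).2, (h' n).2]; module
    rw [e, norm_smul, (h n).1, (h' n).1]
    simp only [norm_neg, Real.norm_ofNat]
    exact mul_le_mul_of_nonneg_left (L.hR ..) zero_le_two

lemma Graph.lower {x x' : ℕ → X} {ζ ζ' z z' : ℕ → Z} (h : L.Graph x ζ z) (h' : L.Graph x' ζ' z')
    (N : ℕ) :
    ‖x 0 - x' 0‖ + ∑ n ∈ range N, ‖z n - z' n‖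
      ≤ 21 / 4 * ∑ n ∈ range N, ‖ζ n - ζ' n‖ + 3 * ‖x N - x' N‖ := by
  refine seq_lower (a := fun n => ‖ζ n - ζ' n‖) (b := fun n => ‖x n - x' n‖)
    (c := fun n => ‖z n - z' n‖) (fun _ => norm_nonneg _) (fun _ => norm_nonneg _)
    (fun n => ?_) (fun n => ?_) N
  · have e : x n - x' n = (1 / 2 : ℝ) • (x (n + 1) - x' (n + 1))
        + (L.r (ζ n) (x n) - L.r (ζ' n) (x' n)) := by
      rw [(h n).2, (h' n).2]; module
    calc ‖x n - x' n‖ = ‖(1 / 2 : ℝ) • (x (n + 1) - x' (n + 1))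
        + (L.r (ζ n) (x n) - L.r (ζ' n) (x' n))‖ := by rw [← e]
      _ ≤ _ := by
        refine (norm_add_le _ _).trans (add_le_add (le_of_eq ?_) (L.hr ..))
        rw [norm_smul, Real.norm_of_nonneg (by norm_num)]; ring
  · have e : z n - z' n = (ζ n - ζ' n) - (L.J (ζ n) (x n) - L.J (ζ' n) (x' n)) := by
      rw [(h n).1, (h' n).1]; abel
    rw [e]
    exact (norm_sub_le _ _).trans (add_le_add_right (L.hJ ..) _)

variable (L)

omit [NormedSpace ℝ X] in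
lemma exists_step [CompleteSpace Z] (x : X) (z : Z) : ∃ ζ, z = ζ - L.J ζ x := by
  have hc : ContractingWith (2 / 1000) (fun ζ => z + L.J ζ x) := by
    refine ⟨by norm_num, LipschitzWith.of_dist_le_mul fun a b => ?_⟩
    rw [dist_eq_norm, dist_eq_norm, add_sub_add_left_eq_sub]
    simpa using L.hJ a x b x
  refine ⟨hc.fixedPoint, ?_⟩
  have := hc.fixedPoint_isFixedPt
  exact eq_sub_of_add_eq this

lemma exists_forward [CompleteSpace Z] (x0 : X) (z : L1 Z) :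
    ∃ (x : ℕ → X) (ζ : L1 Z), x 0 = x0 ∧ L.Graph x ζ z ∧ Summable fun n => ‖x n‖ := by
  choose st hst using L.exists_step
  let x : ℕ → X := fun n => Nat.rec x0 (fun n y => (2 : ℝ) • (y - L.r (st y (z n)) y)) n
  have hG : L.Graph x (fun n => st (x n) (z n)) z := fun n => ⟨hst _ _, rfl⟩
  have hup := fun N => hG.upper L.graph_zero N
  simp only [Pi.zero_apply, sub_zero] at hup
  have hz : ∀ N, ∑ n ∈ range N, ‖z n‖ ≤ ‖z‖ := fun N => by
    rw [L1.norm_eq]; exact (L1.summable z).sum_le_tsum _ fun _ _ => norm_nonneg _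
  refine ⟨x, L1.mk (fun n => st (x n) (z n)) ?_, rfl, hG, ?_⟩
  · exact summable_of_sum_range_le (c := 76 / 25 * (‖x 0‖ + ‖z‖)) (fun _ => norm_nonneg _)
      fun N => (hup N).1.trans (by linarith [hz N])
  · exact summable_of_sum_range_le (c := 4 * (‖x 0‖ + ‖z‖)) (fun _ => norm_nonneg _)
      fun N => (hup N).2.trans (by linarith [hz N])

lemma exists_backward [CompleteSpace X] (ζ : L1 Z) :
    ∃ (x : ℕ → X) (z : L1 Z), L.Graph x ζ z := by
  have hr0 : ∀ a y, ‖L.r a y‖ ≤ (1 + 1 / 1000) * ‖a‖ + 1 / 1000 * ‖y‖ := fun a y => by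
    simpa [L.r_zero] using L.hr a y 0 0
  have hζ : ∀ n, ‖ζ n‖ ≤ ‖ζ‖ := fun n => lp.norm_apply_le_norm one_ne_zero ζ n
  let Φ : BoundedContinuousFunction ℕ X → BoundedContinuousFunction ℕ X := fun x =>
    BoundedContinuousFunction.ofNormedAddCommGroupDiscrete
      (fun n => (1 / 2 : ℝ) • x (n + 1) + L.r (ζ n) (x n)) (‖x‖ + (2 * ‖ζ‖ + ‖x‖)) fun n => by
      refine (norm_add_le _ _).trans (add_le_add ?_ ((hr0 _ _).trans ?_))
      · rw [norm_smul, Real.norm_of_nonneg (by norm_num)]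
        linarith [x.norm_coe_le_norm (n + 1), norm_nonneg x]
      · linarith [x.norm_coe_le_norm n, norm_nonneg x, hζ n, norm_nonneg ζ]
  have hc : ContractingWith (3 / 4) Φ := by
    refine ⟨by norm_num, LipschitzWith.of_dist_le_mul fun a b => ?_⟩
    refine (BoundedContinuousFunction.dist_le (by positivity)).2 fun n => ?_
    have h1 := BoundedContinuousFunction.dist_coe_le_dist (f := a) (g := b) n
    have h2 := BoundedContinuousFunction.dist_coe_le_dist (f := a) (g := b) (n + 1)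
    rw [dist_eq_norm] at h1 h2
    have h3 := L.hr (ζ n) (a n) (ζ n) (b n)
    change dist ((1 / 2 : ℝ) • a (n + 1) + L.r (ζ n) (a n))
      ((1 / 2 : ℝ) • b (n + 1) + L.r (ζ n) (b n)) ≤ _
    rw [dist_eq_norm, add_sub_add_comm, ← smul_sub]
    refine (norm_add_le _ _).trans ?_
    rw [norm_smul, Real.norm_of_nonneg (by norm_num)]
    rw [sub_self, norm_zero] at h3
    push_cast
    linarith [dist_nonneg (x := a) (y := b)]
  set x := hc.fixedPoint with hx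
  have hfix : ∀ n, (1 / 2 : ℝ) • x (n + 1) + L.r (ζ n) (x n) = x n := fun n =>
    congrArg (fun f : BoundedContinuousFunction ℕ X => f n) hc.fixedPoint_isFixedPt
  have hG : L.Graph x ζ (fun n => ζ n - L.J (ζ n) (x n)) := fun n => ⟨rfl, by
    rw [← eq_sub_iff_add_eq.2 (hfix n), smul_smul]; norm_num⟩
  refine ⟨x, L1.mk (fun n => ζ n - L.J (ζ n) (x n)) ?_, hG⟩
  refine summable_of_sum_range_le (c := 21 / 4 * ‖ζ‖ + 3 * ‖x‖) (fun _ => norm_nonneg _)
    fun N => ?_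
  have h1 := hG.lower L.graph_zero N
  simp only [Pi.zero_apply, sub_zero] at h1
  have hz : ∑ n ∈ range N, ‖ζ n‖ ≤ ‖ζ‖ := by
    rw [L1.norm_eq]; exact (L1.summable ζ).sum_le_tsum _ fun _ _ => norm_nonneg _
  linarith [x.norm_coe_le_norm N, norm_nonneg (x 0)]

include L in
theorem swindle [CompleteSpace Z] [CompleteSpace X] :
    ∃ Ψ : X × L1 Z → L1 Z, Function.Surjective Ψ ∧ ∀ u v : X × L1 Z,
      4 / 21 * (‖u.1 - v.1‖ + ‖u.2 - v.2‖) ≤ ‖Ψ u - Ψ v‖ ∧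
        ‖Ψ u - Ψ v‖ ≤ 76 / 25 * (‖u.1 - v.1‖ + ‖u.2 - v.2‖) := by
  choose x ζ h0 hG hs using L.exists_forward
  have hlim : ∀ f g : L1 Z,
      Tendsto (fun N => ∑ n ∈ range N, ‖f n - g n‖) atTop (𝓝 ‖f - g‖) := fun f g => by
    rw [L1.norm_eq]
    exact (L1.summable (f - g)).hasSum.tendsto_sum_nat
  have hup : ∀ {y y' : ℕ → X} {a a' z z' : L1 Z}, L.Graph y a z → L.Graph y' a' z' →
      ‖a - a'‖ ≤ 76 / 25 * (‖y 0 - y' 0‖ + ‖z - z'‖) := fun h h' =>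
    le_of_tendsto_of_tendsto' (hlim _ _) (((hlim _ _).const_add _).const_mul _)
      fun N => (h.upper h' N).1
  refine ⟨fun u => ζ u.1 u.2, fun a => ?_, fun u v => ⟨?_, ?_⟩⟩
  · obtain ⟨y, z, h⟩ := L.exists_backward a
    refine ⟨(y 0, z), ?_⟩
    have := hup (hG (y 0) z) h
    rw [h0, sub_self, sub_self, norm_zero, norm_zero, add_zero, mul_zero] at this
    exact sub_eq_zero.1 (norm_le_zero_iff.1 this)
  · have h1 : Tendsto (fun N => ‖x u.1 u.2 N - x v.1 v.2 N‖) atTop (𝓝 0) := by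
      refine squeeze_zero (fun _ => norm_nonneg _) (fun N => norm_sub_le _ _) ?_
      simpa using (hs u.1 u.2).tendsto_atTop_zero.add (hs v.1 v.2).tendsto_atTop_zero
    have h2 := le_of_tendsto_of_tendsto' ((hlim u.2 v.2).const_add _)
      (((hlim _ _).const_mul (21 / 4)).add (h1.const_mul 3))
      fun N => (hG u.1 u.2).lower (hG v.1 v.2) N
    rw [h0, h0] at h2
    linarith
  · have := hup (hG u.1 u.2) (hG v.1 v.2)
    rwa [h0, h0] at this

end Lift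

end Crest.Agent.R91
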