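import Crest.Agent.R91.Norm
import Crest.Agent.R91.Swindle2

/-! Writing into and reading from the space of row 91. -/

set_option autoImplicit false

namespace Crest.Agent.R91

open Filter Topology Finset UniformSpace

variable {E : Type} [NormedAddCommGroup E] [NormedSpace ℝ E] [CompleteSpace E]

namespace Ctx

variable (c : Ctx E)

open Classical in
/-- Coefficients of a single cell. -/
noncomputable def one (k : ℤ) (a : MM E) (k' : ℤ) (a' : MM E) : ℝ :=
  if k' = k ∧ a' = a then 1 else 0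

omit [CompleteSpace E] in
lemma adm_one (k : ℤ) (a : MM E) : c.Adm {k} (one k a) := by
  refine ⟨by simp, fun k' a' => ?_, a, fun k' a' h => ?_⟩
  · unfold one; split_ifs <;> simp
  · unfold one at h
    split_ifs at h with h1
    · rw [h1.2, c.A.D_self]; linarith [c.r_pos k']
    · exact absurd rfl h

/-- The content of the cell `(i, k, a)`. -/
noncomputable def cmp (i : ℕ) (k : ℤ) (a : MM E) : c.Z →L[ℝ] E :=
  ((c.pair (c.Win i {k} (one k a))).mkContinuous 1 fun μ => by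
    rw [one_mul]; exact (norm_pair_Win_le i (c.adm_one k a) μ).trans (c.NN_le μ)).fromCompletion

lemma cmp_coe (i : ℕ) (k : ℤ) {a : MM E} (ha : a ∈ c.C k) (μ : c.Mol) :
    c.cmp i k a μ = c.pair (fun p => (ww i k p * c.pi k a p) • p.1 i) μ := by
  classical
  unfold cmp
  rw [ContinuousLinearMap.fromCompletion_apply_coe, LinearMap.mkContinuous_apply]
  congr 2
  funext p
  simp [Win, wh, G, one, ha]

/-- A combination of cells. -/
noncomputable def cmb (i : ℕ) (K : Finset ℤ) (co : ℤ → MM E → ℝ) : c.Z →L[ℝ] E :=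
  ∑ k ∈ K, ∑ a ∈ c.C k, co k a • c.cmp i k a

lemma cmb_apply (i : ℕ) (K : Finset ℤ) (co : ℤ → MM E → ℝ) (ζ : c.Z) :
    c.cmb i K co ζ = ∑ k ∈ K, ∑ a ∈ c.C k, co k a • c.cmp i k a ζ := by
  simp only [cmb, _root_.sum_apply, _root_.smul_apply]

lemma cmb_coe (i : ℕ) (K : Finset ℤ) (co : ℤ → MM E → ℝ) (μ : c.Mol) :
    c.cmb i K co μ = c.pair (c.Win i K co) μ := by
  have : c.Win i K co
      = fun p => ∑ k ∈ K, ∑ a ∈ c.C k, co k a • ((ww i k p * c.pi k a p) • p.1 i) := by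
    funext p
    simp only [Win, wh, G, mul_sum, sum_smul, smul_smul]
    exact sum_congr rfl fun k _ => sum_congr rfl fun a _ => by rw [mul_left_comm]
  rw [cmb_apply, this, c.pair_sum]
  refine sum_congr rfl fun k _ => ?_
  rw [c.pair_sum]
  exact sum_congr rfl fun a ha => by rw [c.pair_smul, c.cmp_coe i k ha]

variable {c} in
lemma norm_cmb_le (i : ℕ) {K : Finset ℤ} {co : ℤ → MM E → ℝ} (h : c.Adm K co) (ζ : c.Z) :
    ‖c.cmb i K co ζ‖ ≤ ‖ζ‖ := by
  induction ζ using Completion.induction_on with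
  | hp => exact isClosed_le (by fun_prop) (by fun_prop)
  | ih μ =>
    rw [cmb_coe, Completion.norm_coe]
    exact (norm_pair_Win_le i h μ).trans (c.NN_le μ)

/-- The size of the content with index `i`. -/
noncomputable def sv (i : ℕ) (ζ : c.Z) : ℝ :=
  ⨆ x : {x : Finset ℤ × (ℤ → MM E → ℝ) // c.Adm x.1 x.2}, ‖c.cmb i x.1.1 x.1.2 ζ‖

variable {c} in
lemma le_sv (i : ℕ) {K : Finset ℤ} {co : ℤ → MM E → ℝ} (h : c.Adm K co) (ζ : c.Z) :
    ‖c.cmb i K co ζ‖ ≤ c.sv i ζ :=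
  le_ciSup (f := fun x : {x : Finset ℤ × (ℤ → MM E → ℝ) // c.Adm x.1 x.2} =>
    ‖c.cmb i x.1.1 x.1.2 ζ‖) ⟨‖ζ‖, by rintro _ ⟨x, rfl⟩; exact norm_cmb_le i x.2 ζ⟩ ⟨(K, co), h⟩

lemma sv_nonneg (i : ℕ) (ζ : c.Z) : 0 ≤ c.sv i ζ := Real.iSup_nonneg fun _ => norm_nonneg _

lemma sv_le {i : ℕ} {ζ : c.Z} {t : ℝ} (ht : 0 ≤ t)
    (h : ∀ K co, c.Adm K co → ‖c.cmb i K co ζ‖ ≤ t) : c.sv i ζ ≤ t :=
  Real.iSup_le (fun x => h _ _ x.2) ht

lemma sv_le_norm (i : ℕ) (ζ : c.Z) : c.sv i ζ ≤ ‖ζ‖ :=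
  c.sv_le (norm_nonneg _) fun _ _ h => norm_cmb_le i h ζ

lemma sv_sub_le (i : ℕ) (ζ ζ' : c.Z) : c.sv i (ζ - ζ') ≤ c.sv i ζ + c.sv i ζ' :=
  c.sv_le (add_nonneg (c.sv_nonneg _ _) (c.sv_nonneg _ _)) fun _ _ h => by
    rw [map_sub]; exact (norm_sub_le _ _).trans (add_le_add (le_sv i h _) (le_sv i h _))

lemma sv_le_add (i : ℕ) (ζ ζ' : c.Z) : c.sv i ζ ≤ c.sv i ζ' + ‖ζ - ζ'‖ := by
  have h1 := c.sv_sub_le i ζ' (ζ' - ζ)
  rw [sub_sub_cancel] at h1
  have h2 := c.sv_le_norm i (ζ' - ζ)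
  rw [norm_sub_rev] at h2
  linarith

lemma sv_tendsto (ζ : c.Z) : Tendsto (fun i => ‖c.sv i ζ‖) atTop (𝓝 0) := by
  simp only [Real.norm_of_nonneg (c.sv_nonneg _ _)]
  rw [tendsto_order]
  refine ⟨fun a ha => Eventually.of_forall fun i => ha.trans_le (c.sv_nonneg _ _), fun ε hε => ?_⟩
  obtain ⟨μ, hμ⟩ := (Completion.denseRange_coe (α := c.Mol)).exists_dist_lt ζ (half_pos hε)
  rw [dist_eq_norm] at hμ
  have h1 : Tendsto (fun i => ∑ p ∈ μ.co.support, |μ.co p| * ‖p.1 i‖) atTop (𝓝 0) := by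
    simpa using tendsto_finsetSum μ.co.support fun p _ => (C0.tendsto p.1).const_mul |μ.co p|
  filter_upwards [h1.eventually (gt_mem_nhds (half_pos hε))] with i hi
  have h2 : c.sv i μ ≤ ∑ p ∈ μ.co.support, |μ.co p| * ‖p.1 i‖ :=
    c.sv_le (sum_nonneg fun p _ => by positivity) fun K co h => by
      rw [cmb_coe]; exact c.norm_pair_le (c.norm_Win_le i K h.2.1) μ
  linarith [c.sv_le_add i ζ μ]

/-- The point of the model attached to `(ζ, x)`. -/
noncomputable def pt (ζ : c.Z) (x : C0 E) : MM E := (x, C0.mk (fun i => c.sv i ζ) (c.sv_tendsto ζ))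

lemma pt_snd_le (ζ ζ' : c.Z) (x x' : C0 E) : ‖(c.pt ζ x).2 - (c.pt ζ' x').2‖ ≤ ‖ζ - ζ'‖ := by
  refine C0.norm_le (norm_nonneg _) fun i => ?_
  have h1 := c.sv_le_add i ζ ζ'
  have h2 := c.sv_le_add i ζ' ζ
  rw [norm_sub_rev] at h2
  change |c.sv i ζ - c.sv i ζ'| ≤ _
  exact abs_le.2 ⟨by linarith, by linarith⟩

lemma dist_pt_le (ζ ζ' : c.Z) (x x' : C0 E) :
    dist (c.pt ζ x) (c.pt ζ' x') ≤ ‖x - x'‖ + ‖ζ - ζ'‖ :=
  (dist_le_add _ _).trans (add_le_add_right (c.pt_snd_le ζ ζ' x x') _)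

lemma sig_pt (i : ℕ) (ζ : c.Z) (x : C0 E) : sig i (c.pt ζ x) = ‖x i‖ + c.sv i ζ := by
  change ‖x i‖ + |c.sv i ζ| = _
  rw [abs_of_nonneg (c.sv_nonneg _ _)]

/-- Writing. -/
noncomputable def J (ζ : c.Z) (x : C0 E) : c.Z := (c.dl (c.pt ζ x) : c.Z) - (c.dl (c.pt ζ 0) : c.Z)

lemma cmb_J (i : ℕ) (K : Finset ℤ) (co : ℤ → MM E → ℝ) (ζ : c.Z) (x : C0 E) :
    c.cmb i K co (c.J ζ x) = c.Win i K co (c.pt ζ x) := by
  unfold J
  rw [map_sub, cmb_coe, cmb_coe, pair_dl, pair_dl]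
  simp [Win, pt]

lemma sv_J_le (i : ℕ) (ζ : c.Z) (x : C0 E) : c.sv i (c.J ζ x) ≤ ‖x i‖ :=
  c.sv_le (norm_nonneg _) fun K co h => by
    rw [cmb_J]; exact c.norm_Win_le i K h.2.1 _

lemma single_le (i : ℕ) (k : ℤ) {co : MM E → ℝ} {t : ℝ} (ht : 0 ≤ t) (h1 : ∀ a, |co a| ≤ t)
    {a0 : MM E} (h2 : ∀ a, co a ≠ 0 → c.A.D a0 a < 3 * c.r k) (y : c.Z) :
    ‖∑ a ∈ c.C k, co a • c.cmp i k a y‖ ≤ t * c.sv i y := by
  rcases ht.eq_or_lt with rfl | ht
  · have : ∀ a, co a = 0 := fun a => abs_nonpos_iff.1 (h1 a)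
    simp [this]
  · have h : c.Adm {k} (fun k' a => if k' = k then co a / t else 0) := by
      refine ⟨by simp, fun k' a => ?_, a0, fun k' a h => ?_⟩
      · beta_reduce
        split_ifs
        · rw [abs_div, abs_of_pos ht, div_le_one ht]; exact h1 a
        · simp
      · beta_reduce at h
        split_ifs at h with h3
        · rw [h3]; exact h2 a fun h4 => h (by rw [h4, zero_div])
        · exact absurd rfl h
    have h3 := le_sv i h y
    rw [cmb_apply, sum_singleton] at h3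
    simp only [if_true] at h3
    have e : ∑ a ∈ c.C k, co a • c.cmp i k a y
        = t • ∑ a ∈ c.C k, (co a / t) • c.cmp i k a y := by
      rw [smul_sum]
      exact sum_congr rfl fun a _ => by rw [smul_smul, mul_div_cancel₀ _ ht.ne']
    rw [e, norm_smul, Real.norm_of_nonneg ht.le]
    exact mul_le_mul_of_nonneg_left h3 ht.le

/-- Plateau functions of scale `k`. -/
noncomputable def rho (k : ℤ) (a p : MM E) : ℝ := c.A.rho (c.r k) a p

/-- Reading the scale `k` at the address of `p`. -/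
noncomputable def rk (i : ℕ) (k : ℤ) (p : MM E) (y : c.Z) : E :=
  ∑ a ∈ c.C k, c.rho k a p • c.cmp i k a y

/-- Reading at the address of `p`. -/
noncomputable def rd (i : ℕ) (p : MM E) : c.Z →L[ℝ] E :=
  c.cmb i (win (uu i p)) fun k a => chi |uu i p + k| * c.rho k a p

lemma norm_rd_le (i : ℕ) (p : MM E) (y : c.Z) : ‖c.rd i p y‖ ≤ c.sv i y := by
  refine le_sv i ⟨card_win _, fun k a => ?_, p, fun k a h => ?_⟩ y
  · rw [abs_mul]
    exact mul_le_one₀ (abs_chi_le _) (abs_nonneg _) (abs_chi_le _)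
  · exact c.A.lt_of_rho_ne (c.r_pos k) (right_ne_zero_of_mul h)

lemma rd_eq (i : ℕ) (p : MM E) (y : c.Z) {K : Finset ℤ} (hK : win (uu i p) ⊆ K) :
    c.rd i p y = ∑ k ∈ K, chi |uu i p + k| • c.rk i k p y := by
  unfold rd rk
  rw [cmb_apply]
  simp only [mul_smul, ← smul_sum]
  refine sum_subset hK fun k _ hk => ?_
  rw [chi_of_ge (not_lt.1 fun h => hk (mem_win h)), zero_smul]

lemma rd_J (i : ℕ) (ζ : c.Z) (x : C0 E) : c.rd i (c.pt ζ x) (c.J ζ x) = x i := by
  unfold rd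
  rw [cmb_J]
  have : c.wh i (win (uu i (c.pt ζ x)))
      (fun k a => chi |uu i (c.pt ζ x) + k| * c.rho k a (c.pt ζ x)) (c.pt ζ x) = 1 := by
    rw [← sum_hat_win (uu i (c.pt ζ x))]
    refine sum_congr rfl fun k _ => ?_
    by_cases h : ww i k (c.pt ζ x) = 0
    · rw [h, zero_mul]; exact h.symm
    · have h1 : c.G k (fun a => chi |uu i (c.pt ζ x) + k| * c.rho k a (c.pt ζ x)) (c.pt ζ x)
          = 1 := by
        rw [← c.A.sum_pi (c.r_pos k) (c.C_net k) (c.pt ζ x)]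
        refine sum_congr rfl fun a _ => ?_
        beta_reduce
        rw [chi_of_le (abs_lt_of_hat_ne h).le, one_mul]
        exact c.A.rho_mul_pi (c.r_pos k) _ _ _
      rw [h1, mul_one]; rfl
  unfold Win
  rw [this, one_smul]
  rfl

lemma norm_rk_le (i : ℕ) (k : ℤ) (p : MM E) (y : c.Z) : ‖c.rk i k p y‖ ≤ c.sv i y := by
  have := c.single_le i k (co := fun a => c.rho k a p) zero_le_one (fun a => abs_chi_le _)
    (a0 := p) (fun a h => c.A.lt_of_rho_ne (c.r_pos k) h) y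
  rwa [one_mul] at this

lemma rk_diff (i : ℕ) (k : ℤ) (p p' : MM E) (y : c.Z) :
    ‖c.rk i k p y - c.rk i k p' y‖ ≤ 2 * (eta * Real.exp (Lam * k) * c.A.D p p' * c.sv i y) := by
  classical
  have hr := c.r_pos k
  have h0 : ∀ a, |c.rho k a p - c.rho k a p'| ≤ eta * Real.exp (Lam * k) * c.A.D p p' := by
    intro a
    refine (c.A.rho_lip hr a p p').trans ?_
    rw [div_eq_inv_mul]
    refine mul_le_mul_of_nonneg_right (le_trans ?_ (c.C_card k)) (c.A.D_nonneg _ _)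
    obtain ⟨b, hb, -⟩ := c.C_net k p
    have : (1 : ℝ) ≤ (c.C k).card := by exact_mod_cast card_pos.2 ⟨b, hb⟩
    rw [inv_eq_one_div]
    exact div_le_div_of_nonneg_right (by linarith) hr.le
  have ht : 0 ≤ eta * Real.exp (Lam * k) * c.A.D p p' := (abs_nonneg _).trans (h0 p)
  have h1 := c.single_le i k
    (co := fun a => if c.rho k a p = 0 then 0 else c.rho k a p - c.rho k a p') ht
    (fun a => by split_ifs; exacts [by simpa using ht, h0 a]) (a0 := p)
    (fun a h => c.A.lt_of_rho_ne hr fun h' => h (if_pos h')) y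
  have h2 := c.single_le i k
    (co := fun a => if c.rho k a p = 0 then c.rho k a p - c.rho k a p' else 0) ht
    (fun a => by split_ifs; exacts [h0 a, by simpa using ht]) (a0 := p')
    (fun a h => c.A.lt_of_rho_ne hr fun h' => h (by
      split_ifs with h3
      · rw [h3]; exact (zero_sub _).trans (neg_eq_zero.2 h')
      · rfl)) y
  refine le_trans (le_of_eq ?_) ((norm_add_le _ _).trans ((add_le_add h1 h2).trans_eq (by ring)))
  congr 1
  unfold rk
  rw [← sum_sub_distrib, ← sum_add_distrib]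
  refine sum_congr rfl fun a _ => ?_
  rw [← sub_smul, ← add_smul]
  split_ifs <;> simp

lemma rd_diff {i : ℕ} {p p' : MM E} {y : c.Z} (h : sig i p' ≤ sig i p) (hy : c.sv i y ≤ sig i p') :
    ‖c.rd i p y - c.rd i p' y‖ ≤ 1 / 1000 * dist p p' := by
  classical
  set K := win (uu i p) ∪ win (uu i p') with hK
  have hd : 0 ≤ dist p p' := dist_nonneg
  have e : c.rd i p y - c.rd i p' y
      = ∑ k ∈ K, (chi |uu i p + k| - chi |uu i p' + k|) • c.rk i k p y
        + ∑ k ∈ win (uu i p'), chi |uu i p' + k| • (c.rk i k p y - c.rk i k p' y) := by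
    rw [c.rd_eq i p y (K := K) subset_union_left, c.rd_eq i p' y (Subset.refl _)]
    simp only [sub_smul, smul_sub, sum_sub_distrib]
    rw [← sum_subset (s₁ := win (uu i p')) (s₂ := K) subset_union_right
      (f := fun k => chi |uu i p' + k| • c.rk i k p y) fun k _ hk => by
        rw [chi_of_ge (not_lt.1 fun h => hk (mem_win h)), zero_smul]]
    abel
  have h1 : ∀ k ∈ K, ‖(chi |uu i p + k| - chi |uu i p' + k|) • c.rk i k p y‖
      ≤ 1 / 16000 * dist p p' := by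
    intro k _
    rw [norm_smul, mul_comm]
    have a1 : abs (chi |uu i p + k| - chi |uu i p' + k|) ≤ |uu i p - uu i p'| := by
      refine (chi_lip _ _).trans ((abs_abs_sub_abs_le_abs_sub _ _).trans_eq ?_)
      rw [add_sub_add_right_eq_sub]
    refine (mul_le_mul ((c.norm_rk_le i k p y).trans hy) a1 (abs_nonneg _)
      (sig_nonneg i p')).trans ((sig_mul_uu h).trans_eq ?_)
    unfold Lam; norm_num
  have h2 : ∀ k ∈ win (uu i p'), ‖chi |uu i p' + k| • (c.rk i k p y - c.rk i k p' y)‖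
      ≤ 1 / 8000 * dist p p' := by
    intro k _
    by_cases h0 : chi |uu i p' + k| = 0
    · rw [h0, zero_smul, norm_zero]; positivity
    · rw [norm_smul]
      refine (mul_le_of_le_one_left (norm_nonneg _) (abs_chi_le _)).trans
        ((c.rk_diff i k p p' y).trans ?_)
      have a1 := sig_eta_le (lt_two_of_chi_ne h0)
      have a2 : 0 < eta * Real.exp (Lam * k) := mul_pos eta_pos (Real.exp_pos _)
      have a3 : c.sv i y * (eta * Real.exp (Lam * k)) ≤ 1 / 16000 :=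
        (mul_le_mul_of_nonneg_right hy a2.le).trans a1
      have a4 := mul_le_mul a3 (c.A.D_le p p') (c.A.D_nonneg p p') (by norm_num)
      linarith
  rw [e]
  refine (norm_add_le _ _).trans ((add_le_add ((norm_sum_le _ _).trans (sum_le_sum h1))
    ((norm_sum_le _ _).trans (sum_le_sum h2))).trans ?_)
  rw [sum_const, sum_const, nsmul_eq_mul, nsmul_eq_mul]
  have c1 : (K.card : ℝ) ≤ 8 := by
    exact_mod_cast (card_union_le _ _).trans (add_le_add (card_win _) (card_win _))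
  have c2 : ((win (uu i p')).card : ℝ) ≤ 4 := by exact_mod_cast card_win _
  nlinarith

lemma rd_sub_le {i : ℕ} {p p' : MM E} {y y' : c.Z} (hy : c.sv i y ≤ sig i p)
    (hy' : c.sv i y' ≤ sig i p') :
    ‖c.rd i p y - c.rd i p' y'‖ ≤ ‖y - y'‖ + 1 / 1000 * dist p p' := by
  wlog h : sig i p' ≤ sig i p generalizing p p' y y'
  · rw [norm_sub_rev, norm_sub_rev y, dist_comm]
    exact this hy' hy (not_le.1 h).le
  refine (norm_sub_le_norm_sub_add_norm_sub _ (c.rd i p y') _).trans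
    (add_le_add ?_ (c.rd_diff h hy'))
  rw [← map_sub]
  exact (c.norm_rd_le i p _).trans (c.sv_le_norm i _)

/-- Reading. -/
noncomputable def rr (ζ : c.Z) (x : C0 E) : C0 E :=
  C0.mk (fun i => c.rd i (c.pt ζ x) ζ) (squeeze_zero (fun _ => norm_nonneg _)
    (fun i => (c.norm_rd_le i _ ζ).trans (le_abs_self _)) (c.sv_tendsto ζ))

/-- The approximate lifting. -/
noncomputable def lift : Lift c.Z (C0 E) where
  J := c.J
  r := c.rr
  J_zero := sub_self _
  r_zero := ZeroAtInftyContinuousMap.ext fun i => map_zero (c.rd i _)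
  hJ ζ x ζ' x' := by
    unfold J
    rw [sub_sub_sub_comm]
    refine (norm_sub_le _ _).trans
      ((add_le_add (c.norm_dl_coe_sub _ _) (c.norm_dl_coe_sub _ _)).trans ?_)
    have h1 := c.pt_snd_le ζ ζ' x x'
    have h2 := c.pt_snd_le ζ ζ' 0 0
    unfold ds
    change (1 + 1 / 1000) * ‖x - x'‖ + _ + ((1 + 1 / 1000) * ‖(0 : C0 E) - 0‖ + _) ≤ _
    rw [sub_self, norm_zero]
    linarith
  hr ζ x ζ' x' := by
    refine C0.norm_le (by positivity) fun i => ?_
    refine (c.rd_sub_le (i := i) (p := c.pt ζ x) (p' := c.pt ζ' x') ?_ ?_).trans ?_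
    · rw [sig_pt]; linarith [norm_nonneg (x i)]
    · rw [sig_pt]; linarith [norm_nonneg (x' i)]
    · linarith [c.dist_pt_le ζ ζ' x x']
  hR ζ x ζ' x' := by
    refine C0.norm_le (by positivity) fun i => ?_
    have e : ∀ ζ x, (c.rr ζ x - x) i = c.rd i (c.pt ζ x) (ζ - c.J ζ x) := fun ζ x => by
      rw [map_sub, rd_J]; rfl
    rw [ZeroAtInftyContinuousMap.sub_apply, e, e]
    refine (c.rd_sub_le ?_ ?_).trans ?_
    · rw [sig_pt]; linarith [c.sv_sub_le i ζ (c.J ζ x), c.sv_J_le i ζ x]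
    · rw [sig_pt]; linarith [c.sv_sub_le i ζ' (c.J ζ' x'), c.sv_J_le i ζ' x']
    · linarith [c.dist_pt_le ζ ζ' x x']

end Ctx

end Crest.Agent.R91
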