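import Crest.Agent.R91.Null
import Crest.Agent.R91.Read

/-! The main construction of row 91. -/

set_option autoImplicit false

namespace Crest.Agent.R91

open Filter Topology Finset

theorem exists_space (E : Type) [NormedAddCommGroup E] [NormedSpace ℝ E] [CompleteSpace E]
    [TopologicalSpace.SeparableSpace E] (hE : NoC0 E) (Q : Proj E) :
    ∃ (Y : Type) (_ : NormedAddCommGroup Y) (_ : NormedSpace ℝ Y),
      CompleteSpace Y ∧ TopologicalSpace.SeparableSpace Y ∧ NoC0 Y ∧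
      ∃ Ψ : C0 E × Y → Y, Function.Surjective Ψ ∧ ∀ u v : C0 E × Y,
        4 / 21 * (‖u.1 - v.1‖ + ‖u.2 - v.2‖) ≤ ‖Ψ u - Ψ v‖ ∧
          ‖Ψ u - Ψ v‖ ≤ 76 / 25 * (‖u.1 - v.1‖ + ‖u.2 - v.2‖) := by
  obtain ⟨c⟩ := exists_ctx Q
  have : Fact ((1 : ENNReal) ≠ ⊤) := ⟨ENNReal.one_ne_top⟩
  exact ⟨L1 c.Z, inferInstance, inferInstance, inferInstance, inferInstance,
    noC0_L1 (Ctx.noC0_Z hE), c.lift.swindle⟩

/-- The trivial projections of the real line. -/
noncomputable def projReal : Proj ℝ where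
  P _ := ContinuousLinearMap.id ℝ ℝ
  lam _ := ContinuousLinearMap.id ℝ ℝ
  P_le _ _ := le_rfl
  P_lim _ := tendsto_const_nhds
  P_lam m x := single_le_sum (f := fun _ => |x|) (fun _ _ => abs_nonneg _)
    (mem_range.2 (Nat.succ_pos m))

/-- The coordinate projections of `ℓ²`. -/
noncomputable def projL2 : Proj (lp (fun _ : ℕ => ℝ) 2) where
  P m := ∑ l ∈ range (m + 1), (lp.singleContinuousLinearMap ℝ (fun _ : ℕ => ℝ) 2 l).comp
    (lp.evalCLM ℝ (fun _ : ℕ => ℝ) 2 l)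
  lam l := lp.evalCLM ℝ (fun _ : ℕ => ℝ) 2 l
  P_le m x := by
    have h1 := lp.norm_sum_single (E := fun _ : ℕ => ℝ) (p := 2) (by norm_num) x (range (m + 1))
    have h2 := lp.sum_rpow_le_norm_rpow (E := fun _ : ℕ => ℝ) (p := 2) (by norm_num) x
      (range (m + 1))
    rw [← h1] at h2
    simp only [ENNReal.toReal_ofNat, Real.rpow_ofNat] at h2
    rw [_root_.sum_apply]
    exact le_of_sq_le_sq h2 (norm_nonneg _)
  P_lim x := by
    simp only [_root_.sum_apply]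
    exact ((lp.hasSum_single (E := fun _ : ℕ => ℝ) (p := 2) (by norm_num) x).tendsto_sum_nat).comp
      (tendsto_add_atTop_nat 1)
  P_lam m x := by
    rw [_root_.sum_apply]
    refine (norm_sum_le _ _).trans (le_of_eq (sum_congr rfl fun l _ => ?_))
    exact lp.norm_single (E := fun _ : ℕ => ℝ) (p := 2) (by norm_num) l (x l)

lemma NoC0.isEmpty {E Y : Type} [NormedAddCommGroup E] [NormedSpace ℝ E] [Nontrivial E]
    [NormedAddCommGroup Y] [NormedSpace ℝ Y] (hY : NoC0 Y) (S : Submodule ℝ Y) :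
    IsEmpty (S ≃L[ℝ] C0 E) := by
  refine ⟨fun e => ?_⟩
  obtain ⟨v, hv⟩ := exists_ne (0 : E)
  refine hv (hY.not_embed (S.subtypeL.comp (e.symm : C0 E →L[ℝ] S)).toLinearMap.toAddMonoidHom
    (norm_nonneg (e.symm : C0 E →L[ℝ] S)) (b := ‖(e : S →L[ℝ] C0 E)‖)
    (fun x => (e.symm : C0 E →L[ℝ] S).le_opNorm x) (fun x => ?_) v)
  have := (e : S →L[ℝ] C0 E).le_opNorm (e.symm x)
  simpa using this

end Crest.Agent.R91
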