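import Crest.Agent.R91.Seq
import Crest.Agent.R91.Addr

/-! The metric model of row 91: scales, windows and the context of choices. -/

set_option autoImplicit false

namespace Crest.Agent.R91

open Filter Topology Finset

/-- The points of the model. -/
abbrev MM (E : Type) [NormedAddCommGroup E] : Type := C0 E × C0 ℝ

/-- The logarithm of the ratio between consecutive scales. -/
def Lam : ℝ := 32000

lemma Lam_pos : 0 < Lam := by unfold Lam; norm_num

/-- The tent function. -/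
noncomputable def hat (t : ℝ) : ℝ := max 0 (1 - |t|)

lemma hat_nonneg (t : ℝ) : 0 ≤ hat t := le_max_left _ _

lemma hat_lip (s t : ℝ) : |hat s - hat t| ≤ |s - t| := by
  unfold hat
  refine (abs_max_sub_max_le_max _ _ _ _).trans (max_le (by simp) ?_)
  rw [sub_sub_sub_cancel_left, abs_sub_comm]
  exact abs_abs_sub_abs_le_abs_sub _ _

lemma abs_lt_of_hat_ne {t : ℝ} (h : hat t ≠ 0) : |t| < 1 := by
  by_contra h'
  exact h (max_eq_left (by linarith [not_lt.1 h']))

/-- The four scales seen at log-size `u`. -/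
noncomputable def win (u : ℝ) : Finset ℤ := {⌊-u⌋ - 1, ⌊-u⌋, ⌊-u⌋ + 1, ⌊-u⌋ + 2}

lemma card_win (u : ℝ) : (win u).card ≤ 4 := card_le_four

lemma mem_win {u : ℝ} {k : ℤ} (h : |u + k| < 2) : k ∈ win u := by
  have h1 := Int.floor_le (-u)
  have h2 := Int.lt_floor_add_one (-u)
  rw [abs_lt] at h
  have h3 : ((⌊-u⌋ - 2 : ℤ) : ℝ) < k := by push_cast; linarith
  have h4 : (k : ℝ) < (⌊-u⌋ + 3 : ℤ) := by push_cast; linarith
  have h5 : ⌊-u⌋ - 2 < k := by exact_mod_cast h3
  have h6 : k < ⌊-u⌋ + 3 := by exact_mod_cast h4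
  simp only [win, mem_insert, mem_singleton]
  omega

lemma sum_hat_win (u : ℝ) : ∑ k ∈ win u, hat (u + k) = 1 := by
  have h1 := Int.floor_le (-u)
  have h2 := Int.lt_floor_add_one (-u)
  unfold win
  rw [sum_insert (by simp only [mem_insert, mem_singleton]; omega),
    sum_insert (by simp only [mem_insert, mem_singleton]; omega),
    sum_insert (by simp only [mem_singleton]; omega), sum_singleton]
  push_cast
  unfold hat
  rw [abs_of_nonpos (by linarith), abs_of_nonpos (by linarith), abs_of_nonneg (by linarith),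
    abs_of_nonneg (by linarith), max_eq_left (by linarith), max_eq_right (by linarith),
    max_eq_right (by linarith), max_eq_left (by linarith)]
  ring

lemma sum_hat_le (u : ℝ) (K : Finset ℤ) : ∑ k ∈ K, hat (u + k) ≤ 1 := by
  classical
  rw [← sum_hat_win u, ← sum_filter_ne_zero K]
  exact sum_le_sum_of_subset_of_nonneg
    (fun k hk => mem_win ((abs_lt_of_hat_ne (mem_filter.1 hk).2).trans one_lt_two))
    fun _ _ _ => hat_nonneg _

/-- Lower end of the scale `k`. -/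
noncomputable def lo (k : ℤ) : ℝ := Real.exp (-Lam * (k + 1))

/-- Upper end of the scale `k`. -/
noncomputable def hi (k : ℤ) : ℝ := Real.exp (-Lam * (k - 1))

/-- The address resolution constant. -/
noncomputable def eta : ℝ := 1 / 16000 / Real.exp (2 * Lam)

lemma lo_pos (k : ℤ) : 0 < lo k := Real.exp_pos _
lemma hi_pos (k : ℤ) : 0 < hi k := Real.exp_pos _
lemma eta_pos : 0 < eta := by unfold eta; positivity

lemma hi_eq (k : ℤ) : hi k = Real.exp (2 * Lam) * lo k := by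
  unfold hi lo; rw [← Real.exp_add]; congr 1; ring

lemma lo_anti {k k' : ℤ} (h : k' ≤ k) : lo k ≤ lo k' := by
  have : (k' : ℝ) ≤ k := by exact_mod_cast h
  exact Real.exp_le_exp.2 (by nlinarith [Lam_pos])

lemma hi_le_lo {k k' : ℤ} (h : k' + 2 ≤ k) : hi k ≤ lo k' := by
  have : (k' : ℝ) + 2 ≤ k := by exact_mod_cast h
  exact Real.exp_le_exp.2 (by nlinarith [Lam_pos])

lemma hi_tendsto : Tendsto hi atTop (𝓝 0) := by
  refine Real.tendsto_exp_atBot.comp ?_
  refine Tendsto.const_mul_atTop_of_neg (by linarith [Lam_pos]) ?_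
  exact tendsto_atTop_add_const_right _ (-1) tendsto_intCast_atTop_atTop

section
variable {E : Type} [NormedAddCommGroup E]

/-- The size of the coordinate `i`. -/
noncomputable def sig (i : ℕ) (p : MM E) : ℝ := ‖p.1 i‖ + |p.2 i|

/-- The size of the tail from `j` on. -/
noncomputable def tau (j : ℕ) (p : MM E) : ℝ := ⨆ i, sig (j + i) p

/-- The log-size of the coordinate `i`. -/
noncomputable def uu (i : ℕ) (p : MM E) : ℝ := Real.log (sig i p) / Lam

/-- The weight of the scale `k`. -/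
noncomputable def ww (i : ℕ) (k : ℤ) (p : MM E) : ℝ := hat (uu i p + k)

/-- The weighted metric. -/
noncomputable def ds (p q : MM E) : ℝ := (1 + 1 / 1000) * ‖p.1 - q.1‖ + 1 / 1000 * ‖p.2 - q.2‖

lemma norm_fst_le (p q : MM E) : ‖p.1 - q.1‖ ≤ dist p q := by
  rw [← dist_eq_norm]; exact le_max_left _ _

lemma norm_snd_le (p q : MM E) : ‖p.2 - q.2‖ ≤ dist p q := by
  rw [← dist_eq_norm]; exact le_max_right _ _

lemma dist_le_add (p q : MM E) : dist p q ≤ ‖p.1 - q.1‖ + ‖p.2 - q.2‖ := by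
  rw [Prod.dist_eq, dist_eq_norm, dist_eq_norm]
  exact max_le (by linarith [norm_nonneg (p.2 - q.2)]) (by linarith [norm_nonneg (p.1 - q.1)])

lemma dist_le_ds (p q : MM E) : ‖p.1 - q.1‖ + 1 / 1000 * dist p q ≤ ds p q := by
  unfold ds; linarith [dist_le_add p q]

lemma ds_nonneg (p q : MM E) : 0 ≤ ds p q := by unfold ds; positivity

lemma ds_le (p q : MM E) : ds p q ≤ 2 * dist p q := by
  unfold ds; linarith [norm_fst_le p q, norm_snd_le p q, dist_nonneg (x := p) (y := q)]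

lemma coord_le (i : ℕ) (p q : MM E) : ‖p.1 i - q.1 i‖ ≤ ‖p.1 - q.1‖ :=
  C0.norm_apply_le (p.1 - q.1) i

lemma sig_nonneg (i : ℕ) (p : MM E) : 0 ≤ sig i p := by unfold sig; positivity

lemma norm_le_sig (i : ℕ) (p : MM E) : ‖p.1 i‖ ≤ sig i p := le_add_of_nonneg_right (abs_nonneg _)

lemma sig_zero (i : ℕ) : sig i (0 : MM E) = 0 := by simp [sig]

lemma sig_lip (i : ℕ) (p q : MM E) : sig i p ≤ sig i q + 2 * dist p q := by
  unfold sig
  have h1 := (norm_sub_norm_le _ _).trans ((coord_le i p q).trans (norm_fst_le p q))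
  have h2 : |p.2 i| - |q.2 i| ≤ dist p q :=
    (abs_sub_abs_le_abs_sub _ _).trans
      ((C0.norm_apply_le (p.2 - q.2) i).trans (norm_snd_le p q))
  linarith

lemma sig_tendsto (p : MM E) : Tendsto (fun i => sig i p) atTop (𝓝 0) := by
  simpa [sig] using (C0.tendsto p.1).add (C0.tendsto p.2)

lemma sig_le_tau {i j : ℕ} (h : j ≤ i) (p : MM E) : sig i p ≤ tau j p := by
  obtain ⟨l, rfl⟩ := Nat.exists_eq_add_of_le h
  refine le_ciSup (f := fun i => sig (j + i) p) ⟨2 * dist p 0, ?_⟩ l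
  rintro _ ⟨i, rfl⟩
  simpa [sig_zero] using sig_lip (j + i) p 0

lemma tau_le {j : ℕ} {p : MM E} {t : ℝ} (h : ∀ i, j ≤ i → sig i p ≤ t) : tau j p ≤ t :=
  ciSup_le fun i => h _ (Nat.le_add_right j i)

lemma tau_anti {j j' : ℕ} (h : j ≤ j') (p : MM E) : tau j' p ≤ tau j p :=
  tau_le fun _ hi => sig_le_tau (h.trans hi) p

lemma tau_lip (j : ℕ) (p q : MM E) : |tau j p - tau j q| ≤ 2 * dist p q := by
  have key : ∀ p q : MM E, tau j p ≤ tau j q + 2 * dist p q := fun p q =>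
    tau_le fun i hi => (sig_lip i p q).trans (add_le_add_left (sig_le_tau hi q) _)
  have h1 := key p q
  have h2 := key q p
  rw [dist_comm] at h2
  exact abs_le.2 ⟨by linarith, by linarith⟩

lemma tau_small (p : MM E) {t : ℝ} (ht : 0 < t) : ∀ᶠ j in atTop, tau j p ≤ t := by
  obtain ⟨N, hN⟩ := eventually_atTop.1 ((sig_tendsto p).eventually (gt_mem_nhds ht))
  filter_upwards [eventually_ge_atTop N] with j hj
  exact tau_le fun i hi => (hN i (hj.trans hi)).le

lemma sig_mul_uu {i : ℕ} {p q : MM E} (h : sig i q ≤ sig i p) :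
    sig i q * |uu i p - uu i q| ≤ 2 / Lam * dist p q := by
  have hL := Lam_pos
  rcases (sig_nonneg i q).eq_or_lt with h0 | h0
  · rw [← h0, zero_mul]; positivity
  · have h1 : 0 < sig i p := h0.trans_le h
    unfold uu
    rw [← sub_div, abs_div, abs_of_pos hL, abs_of_nonneg (sub_nonneg.2 (Real.log_le_log h0 h)),
      ← Real.log_div h1.ne' h0.ne', ← mul_div_assoc, div_mul_eq_mul_div]
    refine div_le_div_of_nonneg_right ?_ hL.le
    have h2 := Real.log_le_sub_one_of_pos (div_pos h1 h0)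
    have h3 : sig i q * (sig i p / sig i q - 1) = sig i p - sig i q := by field_simp
    nlinarith [sig_lip i p q]

lemma sig_lt_of_uu {i : ℕ} {p : MM E} {k : ℤ} {a : ℝ} (h : |uu i p + k| < a) :
    sig i p < Real.exp (-Lam * (k - a)) := by
  rcases (sig_nonneg i p).eq_or_lt with h0 | h0
  · rw [← h0]; exact Real.exp_pos _
  · rw [← Real.log_lt_iff_lt_exp h0]
    have := (abs_lt.1 h).2
    unfold uu at this
    rw [← lt_sub_iff_add_lt, div_lt_iff₀ Lam_pos] at this
    linarith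

lemma ww_nonneg (i : ℕ) (k : ℤ) (p : MM E) : 0 ≤ ww i k p := hat_nonneg _

lemma ww_le_one (i : ℕ) (k : ℤ) (p : MM E) : ww i k p ≤ 1 :=
  max_le zero_le_one (by linarith [abs_nonneg (uu i p + k)])

lemma sig_lt_hi {i : ℕ} {k : ℤ} {p : MM E} (h : ww i k p ≠ 0) : sig i p < hi k :=
  sig_lt_of_uu (abs_lt_of_hat_ne h)

lemma lo_lt_sig {i : ℕ} {k : ℤ} {p : MM E} (h : ww i k p ≠ 0) (h0 : p.1 i ≠ 0) :
    lo k < sig i p := by
  have h1 : 0 < sig i p := (norm_pos_iff.2 h0).trans_le (norm_le_sig i p)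
  unfold lo
  rw [← Real.lt_log_iff_exp_lt h1]
  have := (abs_lt.1 (abs_lt_of_hat_ne h)).1
  unfold uu at this
  rw [← sub_lt_iff_lt_add, lt_div_iff₀ Lam_pos] at this
  linarith

lemma ww_lip (i : ℕ) (k : ℤ) (p q : MM E) : |ww i k p - ww i k q| ≤ |uu i p - uu i q| := by
  refine (hat_lip _ _).trans_eq ?_
  rw [add_sub_add_right_eq_sub]

variable [NormedSpace ℝ E]

lemma smul_sub_smul_le {F : Type} [NormedAddCommGroup F] [NormedSpace ℝ F] (a b : ℝ) (u v : F) :
    ‖a • u - b • v‖ ≤ |a| * ‖u - v‖ + |a - b| * ‖v‖ := by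
  have : a • u - b • v = a • (u - v) + (a - b) • v := by module
  rw [this]
  refine (norm_add_le _ _).trans_eq ?_
  rw [norm_smul, norm_smul, Real.norm_eq_abs, Real.norm_eq_abs]

lemma smul_coord_lip {i : ℕ} {h : MM E → ℝ} {t : ℝ} (h1 : ∀ p, |h p| ≤ 1)
    (h2 : ∀ p q, sig i q ≤ sig i p → sig i q * |h p - h q| ≤ t * dist p q) (p q : MM E) :
    ‖h p • p.1 i - h q • q.1 i‖ ≤ ‖p.1 - q.1‖ + t * dist p q := by
  wlog hpq : sig i q ≤ sig i p generalizing p q
  · rw [norm_sub_rev, norm_sub_rev p.1, dist_comm]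
    exact this q p (not_le.1 hpq).le
  refine (smul_sub_smul_le _ _ _ _).trans (add_le_add ?_ ?_)
  · exact (mul_le_of_le_one_left (norm_nonneg _) (h1 p)).trans (coord_le i p q)
  · refine le_trans ?_ (h2 p q hpq)
    rw [mul_comm]
    exact mul_le_mul_of_nonneg_right (norm_le_sig i q) (abs_nonneg _)

lemma norm_ww_smul (i : ℕ) (k : ℤ) (p : MM E) : ‖ww i k p • p.1 i‖ ≤ hi k := by
  by_cases h : ww i k p = 0
  · rw [h, zero_smul, norm_zero]; exact (hi_pos k).le
  · rw [norm_smul, Real.norm_of_nonneg (ww_nonneg i k p)]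
    exact (mul_le_of_le_one_left (norm_nonneg _) (ww_le_one i k p)).trans
      ((norm_le_sig i p).trans (sig_lt_hi h).le)

/-- Lipschitz for the address pseudometric. -/
def DL {M F : Type} [PseudoMetricSpace M] [NormedAddCommGroup F] (A : Addr M) (Φ : M → F) : Prop :=
  ∃ Q, 0 ≤ Q ∧ ∀ p q, ‖Φ p - Φ q‖ ≤ Q * A.D p q

/-- The radius of the flattening operation of depth `q`. -/
noncomputable def RR (q : ℕ) : ℝ := 1 / (q + 1)

lemma RR_pos (q : ℕ) : 0 < RR q := by unfold RR; positivity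

lemma RR_tendsto : Tendsto RR atTop (𝓝 0) := tendsto_one_div_add_atTop_nhds_zero_nat

variable (E) in
/-- Finite-rank approximations of the identity, controlled by countably many functionals. -/
structure Proj where
  P : ℕ → E →L[ℝ] E
  lam : ℕ → E →L[ℝ] ℝ
  P_le : ∀ m x, ‖P m x‖ ≤ ‖x‖
  P_lim : ∀ x, Tendsto (fun m => P m x) atTop (𝓝 x)
  P_lam : ∀ m x, ‖P m x‖ ≤ ∑ l ∈ range (m + 1), |lam l x|

variable (E) in
/-- All the choices of the construction. -/
structure Ctx where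
  P : ℕ → E →L[ℝ] E
  P_le : ∀ m x, ‖P m x‖ ≤ ‖x‖
  P_lim : ∀ x, Tendsto (fun m => P m x) atTop (𝓝 x)
  A : Addr (MM E)
  hX : ∀ i k m, DL A fun p => P m (ww i k p • p.1 i)
  hT : ∀ (s j : ℕ) (k : ℤ), DL A fun p => chi (2 ^ s * tau j p / lo k)
  r : ℤ → ℝ
  C : ℤ → Finset (MM E)
  r_pos : ∀ k, 0 < r k
  C_net : ∀ k p, ∃ c ∈ C k, A.D p c ≤ r k
  C_card : ∀ k, 2 * (C k).card / r k ≤ eta * Real.exp (Lam * k)
  r_lim : Tendsto r atTop (𝓝 0)
  Net : ℕ → Finset (MM E)
  Net_net : ∀ q p, ∃ a ∈ Net q, A.D p a ≤ RR q ^ 2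

omit [NormedSpace ℝ E] in
lemma chi_tau_lip (s j : ℕ) (k : ℤ) (p q : MM E) :
    |chi (2 ^ s * tau j p / lo k) - chi (2 ^ s * tau j q / lo k)|
      ≤ 2 ^ s * 2 / lo k * dist p q := by
  refine (chi_lip _ _).trans ?_
  have := lo_pos k
  rw [← sub_div, ← mul_sub, abs_div, abs_mul, abs_of_pos this, abs_of_pos (by positivity),
    div_mul_eq_mul_div, mul_assoc]
  exact div_le_div_of_nonneg_right
    (mul_le_mul_of_nonneg_left (tau_lip j p q) (by positivity)) this.le

theorem exists_ctx (Q : Proj E) : Nonempty (Ctx E) := by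
  obtain ⟨A, hA⟩ := exists_addr (M := MM E) (ι := (ℕ × ℤ × ℕ) ⊕ (ℕ × ℕ × ℤ))
    (Sum.elim (fun x p => Q.lam x.2.2 (ww x.1 x.2.1 p • p.1 x.1))
      (fun x p => chi (2 ^ x.1 * tau x.2.1 p / lo x.2.2))) (by
      rintro (⟨i, k, l⟩ | ⟨s, j, k⟩)
      · exact ⟨‖Q.lam l‖ * hi k, fun p => (Q.lam l).le_of_opNorm_le_of_le le_rfl
          (norm_ww_smul i k p)⟩
      · exact ⟨1, fun p => abs_chi_le _⟩) (by
      rintro (⟨i, k, l⟩ | ⟨s, j, k⟩)
      · refine ⟨‖Q.lam l‖ * (1 + 2 / Lam), fun p q => ?_⟩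
        simp only [Sum.elim_inl]
        rw [← map_sub, mul_assoc]
        refine (Q.lam l).le_of_opNorm_le_of_le le_rfl ?_
        refine (smul_coord_lip (t := 2 / Lam) (h := ww i k) (fun p => ?_) (fun p q h => ?_)
          p q).trans (by linarith [norm_fst_le p q])
        · rw [abs_of_nonneg (ww_nonneg i k p)]; exact ww_le_one i k p
        · exact (mul_le_mul_of_nonneg_left (ww_lip i k p q) (sig_nonneg i q)).trans (sig_mul_uu h)
      · exact ⟨_, chi_tau_lip s j k⟩)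
  obtain ⟨r, C, h1, h2⟩ := A.exists_scales (fun k => eta * Real.exp (Lam * k))
    (fun k => mul_pos eta_pos (Real.exp_pos _))
    (Tendsto.const_mul_atTop eta_pos (Real.tendsto_exp_atTop.comp
      (Tendsto.const_mul_atTop Lam_pos tendsto_intCast_atTop_atTop)))
  choose Net hNet using fun q => A.net (RR q ^ 2) (pow_pos (RR_pos q) 2)
  refine ⟨⟨Q.P, Q.P_le, Q.P_lim, A, fun i k m => ?_, fun s j k => hA (Sum.inr (s, j, k)), r, C,
    fun k => (h1 k).1, fun k => (h1 k).2.1, fun k => (h1 k).2.2, h2, Net, hNet⟩⟩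
  choose L hL0 hL using fun l => hA (Sum.inl (i, k, l))
  refine ⟨∑ l ∈ range (m + 1), L l, sum_nonneg fun l _ => hL0 l, fun p q => ?_⟩
  rw [← map_sub, sum_mul]
  refine (Q.P_lam m _).trans (sum_le_sum fun l _ => ?_)
  rw [map_sub]
  exact hL l p q

end

end Crest.Agent.R91
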