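import Crest.Agent.R91.Class

/-! Molecules and the interpolation norm (row 91). -/

set_option autoImplicit false

namespace Crest.Agent.R91

open Filter Topology Finset

variable {E : Type} [NormedAddCommGroup E] [NormedSpace ℝ E]

/-- `t`-Lipschitz for the weighted metric, vanishing at the origin. -/
def Lp (t : ℝ) (g : MM E → ℝ) : Prop := g 0 = 0 ∧ ∀ p q, |g p - g q| ≤ t * ds p q

/-- The weight of level `s`. -/
noncomputable def th (s : ℕ) : ℝ := 1 / 1000 / ((s + 1) * LL s)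

lemma th_pos (s : ℕ) : 0 < th s := by have := LL_pos s; unfold th; positivity

omit [NormedSpace ℝ E] in
lemma Lp.of_dist {g : MM E → ℝ} {L : ℝ} (hL : 0 ≤ L) (h0 : g 0 = 0)
    (h : ∀ p q, |g p - g q| ≤ L * dist p q) : Lp (1000 * L) g := by
  refine ⟨h0, fun p q => (h p q).trans ?_⟩
  have h1 := dist_le_ds p q
  have h2 := norm_nonneg (p.1 - q.1)
  nlinarith

omit [NormedSpace ℝ E] in
lemma Lp.mono {g : MM E → ℝ} {t t' : ℝ} (h : Lp t g) (ht : t ≤ t') : Lp t' g :=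
  ⟨h.1, fun p q => (h.2 p q).trans (mul_le_mul_of_nonneg_right ht (ds_nonneg p q))⟩

namespace Ctx

/-- Molecules. -/
def Mol (_c : Ctx E) : Type := MM E →₀ ℝ

variable (c : Ctx E)

noncomputable instance : AddCommGroup c.Mol := inferInstanceAs (AddCommGroup (MM E →₀ ℝ))
noncomputable instance : Module ℝ c.Mol := inferInstanceAs (Module ℝ (MM E →₀ ℝ))

variable {c} in
/-- The coefficients of a molecule. -/
def Mol.co (μ : c.Mol) : MM E →₀ ℝ := μ

/-- The point mass. -/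
noncomputable def dl (p : MM E) : c.Mol := (Finsupp.single p (1 : ℝ) : MM E →₀ ℝ)

section pair
variable {F F' : Type} [NormedAddCommGroup F] [NormedSpace ℝ F] [NormedAddCommGroup F']
  [NormedSpace ℝ F']

/-- Integration of a map against a molecule. -/
noncomputable def pair (Φ : MM E → F) : c.Mol →ₗ[ℝ] F := Finsupp.linearCombination ℝ Φ

lemma pair_eq (Φ : MM E → F) (μ : c.Mol) : c.pair Φ μ = ∑ p ∈ μ.co.support, μ.co p • Φ p :=
  Finsupp.linearCombination_apply _ _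

lemma pair_dl (Φ : MM E → F) (p : MM E) : c.pair Φ (c.dl p) = Φ p :=
  (Finsupp.linearCombination_single ℝ 1 p).trans (one_smul _ _)

lemma pair_congr {Φ Ψ : MM E → F} {μ : c.Mol} (h : ∀ p ∈ μ.co.support, Φ p = Ψ p) :
    c.pair Φ μ = c.pair Ψ μ := by
  rw [pair_eq, pair_eq]
  exact sum_congr rfl fun p hp => by rw [h p hp]

lemma pair_sub (Φ Ψ : MM E → F) (μ : c.Mol) :
    c.pair (fun p => Φ p - Ψ p) μ = c.pair Φ μ - c.pair Ψ μ := by
  simp only [pair_eq, smul_sub, sum_sub_distrib]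

lemma pair_zero (μ : c.Mol) : c.pair (fun _ => (0 : F)) μ = 0 := by
  simp only [pair_eq, smul_zero, sum_const_zero]

lemma pair_smul (t : ℝ) (Φ : MM E → F) (μ : c.Mol) :
    c.pair (fun p => t • Φ p) μ = t • c.pair Φ μ := by
  simp only [pair_eq, smul_sum, smul_comm t]

lemma pair_sum {ι : Type} (s : Finset ι) (Φ : ι → MM E → F) (μ : c.Mol) :
    c.pair (fun p => ∑ i ∈ s, Φ i p) μ = ∑ i ∈ s, c.pair (Φ i) μ := by
  simp only [pair_eq, smul_sum]
  exact sum_comm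

lemma map_pair (T : F →L[ℝ] F') (Φ : MM E → F) (μ : c.Mol) :
    T (c.pair Φ μ) = c.pair (fun p => T (Φ p)) μ := by
  simp only [pair_eq, map_sum, map_smul]

lemma norm_pair_le {Φ : MM E → F} {B : MM E → ℝ} (h : ∀ p, ‖Φ p‖ ≤ B p) (μ : c.Mol) :
    ‖c.pair Φ μ‖ ≤ ∑ p ∈ μ.co.support, |μ.co p| * B p := by
  rw [pair_eq]
  refine (norm_sum_le _ _).trans (sum_le_sum fun p _ => ?_)
  rw [norm_smul]
  exact mul_le_mul_of_nonneg_left (h p) (abs_nonneg _)

end pair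

variable {c} in
/-- First moment of a molecule. -/
noncomputable def Mol.wt (μ : c.Mol) : ℝ := ∑ p ∈ μ.co.support, |μ.co p| * ds p 0

lemma abs_pair_le_wt {t : ℝ} {g : MM E → ℝ} (h : Lp t g) (μ : c.Mol) :
    |c.pair g μ| ≤ t * μ.wt := by
  refine (c.norm_pair_le (Φ := g) (B := fun p => t * ds p 0) (fun p => ?_) μ).trans_eq ?_
  · have := h.2 p 0
    rwa [h.1, sub_zero] at this
  · unfold Mol.wt
    rw [mul_sum]
    exact sum_congr rfl fun p _ => by ring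

lemma bdd_pair {S : Set (MM E → ℝ)} {t : ℝ} (h : ∀ g ∈ S, Lp t g) (μ : c.Mol) :
    BddAbove (Set.range fun g : S => |c.pair g.1 μ|) :=
  ⟨t * μ.wt, by rintro _ ⟨g, rfl⟩; exact c.abs_pair_le_wt (h g.1 g.2) μ⟩

/-- The seminorm dual to a set of Lipschitz functions. -/
noncomputable def supSemi {S : Set (MM E → ℝ)} {t : ℝ} (h : ∀ g ∈ S, Lp t g) :
    Seminorm ℝ c.Mol :=
  Seminorm.of (fun μ => ⨆ g : S, |c.pair g.1 μ|)
    (fun μ ν => Real.iSup_le (fun g => by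
      rw [map_add]
      exact (abs_add_le _ _).trans
        (add_le_add (le_ciSup (c.bdd_pair h μ) g) (le_ciSup (c.bdd_pair h ν) g)))
      (add_nonneg (Real.iSup_nonneg fun _ => abs_nonneg _)
        (Real.iSup_nonneg fun _ => abs_nonneg _)))
    (fun a μ => by
      simp only [map_smul, smul_eq_mul, abs_mul]
      rw [Real.norm_eq_abs, Real.mul_iSup_of_nonneg (abs_nonneg a)])

lemma le_supSemi {S : Set (MM E → ℝ)} {t : ℝ} (h : ∀ g ∈ S, Lp t g) {g : MM E → ℝ} (hg : g ∈ S)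
    (μ : c.Mol) : |c.pair g μ| ≤ c.supSemi h μ :=
  le_ciSup (c.bdd_pair h μ) ⟨g, hg⟩

lemma supSemi_le {S : Set (MM E → ℝ)} {t : ℝ} (h : ∀ g ∈ S, Lp t g) {μ : c.Mol} {a : ℝ}
    (ha : 0 ≤ a) (H : ∀ g ∈ S, |c.pair g μ| ≤ a) : c.supSemi h μ ≤ a :=
  Real.iSup_le (fun g => H g.1 g.2) ha

/-- The test functions of the basic seminorm. -/
def SN : Set (MM E → ℝ) :=
  {g | ∃ ξ : E →L[ℝ] ℝ, ‖ξ‖ ≤ 1 ∧
    ((∃ i K co, c.Adm K co ∧ g = fun p => ξ (c.Win i K co p)) ∨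
      ∃ i k s q, ∃ Ψ ∈ c.Cl i k s q, g = fun p => th s • ξ (Ψ p))}

lemma abs_dual_le {ξ : E →L[ℝ] ℝ} (h : ‖ξ‖ ≤ 1) (v : E) : |ξ v| ≤ ‖v‖ := by
  simpa using ξ.le_of_opNorm_le h v

variable {c} in
lemma Lp_th {i : ℕ} {k : ℤ} {s q : ℕ} {Ψ : MM E → E} (h : Ψ ∈ c.Cl i k s q)
    {ξ : E →L[ℝ] ℝ} (hξ : ‖ξ‖ ≤ 1) : Lp (1 / (s + 1)) fun p => th s • ξ (Ψ p) := by
  have h1 := th_pos s
  have h2 := LL_pos s
  have := Lp.of_dist (g := fun p => th s • ξ (Ψ p)) (L := th s * LL s) (by positivity)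
    (by simp [Cl_zero h]) fun p q => by
      rw [← smul_sub, ← map_sub, smul_eq_mul, abs_mul, abs_of_pos h1, mul_assoc]
      exact mul_le_mul_of_nonneg_left ((abs_dual_le hξ _).trans (Cl_lip h p q)) h1.le
  refine this.mono (le_of_eq ?_)
  unfold th
  field_simp

lemma SN_Lp : ∀ g ∈ c.SN, Lp 1 g := by
  rintro g ⟨ξ, hξ, ⟨i, K, co, h, rfl⟩ | ⟨i, k, s, q, Ψ, h, rfl⟩⟩
  · refine ⟨by simp [Win], fun p q => ?_⟩
    rw [← map_sub, one_mul]
    exact (abs_dual_le hξ _).trans ((c.Win_lip i h.1 h.2.1 p q).trans (dist_le_ds p q))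
  · refine (Lp_th h hξ).mono ?_
    rw [div_le_one (by positivity)]
    linarith [Nat.cast_nonneg (α := ℝ) s]

/-- The basic seminorm. -/
noncomputable def NN : Seminorm ℝ c.Mol := c.supSemi c.SN_Lp

variable {c} in
lemma norm_pair_Win_le (i : ℕ) {K : Finset ℤ} {co : ℤ → MM E → ℝ} (h : c.Adm K co) (μ : c.Mol) :
    ‖c.pair (c.Win i K co) μ‖ ≤ c.NN μ := by
  obtain ⟨ξ, hξ, h1⟩ := exists_dual_vector'' ℝ (c.pair (c.Win i K co) μ)
  have := c.le_supSemi c.SN_Lp ⟨ξ, hξ, Or.inl ⟨i, K, co, h, rfl⟩⟩ μ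
  rw [← c.map_pair, h1] at this
  exact (le_abs_self _).trans this

variable {c} in
lemma abs_pair_Cl_le {i : ℕ} {k : ℤ} {s q : ℕ} {Ψ : MM E → E} (h : Ψ ∈ c.Cl i k s q)
    {ξ : E →L[ℝ] ℝ} (hξ : ‖ξ‖ ≤ 1) (μ : c.Mol) :
    |ξ (c.pair Ψ μ)| ≤ 1 / th s * c.NN μ := by
  have := c.le_supSemi c.SN_Lp ⟨ξ, hξ, Or.inr ⟨i, k, s, q, Ψ, h, rfl⟩⟩ μ
  rw [c.pair_smul, ← c.map_pair, smul_eq_mul, abs_mul, abs_of_pos (th_pos s)] at this
  rw [one_div, ← div_eq_inv_mul, le_div_iff₀' (th_pos s)]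
  exact this

/-- The test functions of the `m`-th interpolation seminorm. -/
def Sm (m : ℕ) : Set (MM E → ℝ) :=
  {g | Lp ((1 / 2) ^ (m + 1)) g ∧ ∀ ν, |c.pair g ν| ≤ 2 ^ (m + 1) * c.NN ν}

/-- The `m`-th interpolation seminorm. -/
noncomputable def pm (m : ℕ) : Seminorm ℝ c.Mol := c.supSemi (S := c.Sm m) fun _ hg => hg.1

lemma wt_nonneg (μ : c.Mol) : 0 ≤ μ.wt :=
  sum_nonneg fun p _ => mul_nonneg (abs_nonneg _) (ds_nonneg p 0)

lemma pm_le_NN (m : ℕ) (μ : c.Mol) : c.pm m μ ≤ 2 ^ (m + 1) * c.NN μ :=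
  c.supSemi_le _ (mul_nonneg (by positivity) (apply_nonneg _ _)) fun _ hg => hg.2 μ

lemma hasSum_half (a : ℝ) : HasSum (fun m : ℕ => (1 / 2 : ℝ) ^ (m + 1) * a) a := by
  have := (hasSum_geometric_two.mul_right (1 / 2)).mul_right a
  simpa [pow_succ] using this

lemma summable_pm (μ : c.Mol) : Summable fun m => c.pm m μ :=
  Summable.of_nonneg_of_le (fun _ => apply_nonneg _ _)
    (fun m => c.supSemi_le _ (mul_nonneg (by positivity) (c.wt_nonneg μ))
      fun _ hg => c.abs_pair_le_wt hg.1 μ) (hasSum_half μ.wt).summable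

/-- The sum of the interpolation seminorms. -/
noncomputable def ps : Seminorm ℝ c.Mol :=
  Seminorm.of (fun μ => ∑' m, c.pm m μ)
    (fun μ ν => by
      rw [← (c.summable_pm μ).tsum_add (c.summable_pm ν)]
      exact (c.summable_pm _).tsum_le_tsum (fun m => map_add_le_add _ _ _)
        ((c.summable_pm μ).add (c.summable_pm ν)))
    (fun a μ => by simp only [map_smul_eq_mul, tsum_mul_left])

noncomputable instance : SeminormedAddCommGroup c.Mol :=
  AddGroupSeminorm.toSeminormedAddCommGroup (c.NN ⊔ c.ps).toAddGroupSeminorm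

lemma norm_eq (μ : c.Mol) : ‖μ‖ = max (c.NN μ) (∑' m, c.pm m μ) := rfl

noncomputable instance : NormedSpace ℝ c.Mol where
  norm_smul_le a μ := (map_smul_eq_mul (c.NN ⊔ c.ps) a μ).le

lemma NN_le (μ : c.Mol) : c.NN μ ≤ ‖μ‖ := le_max_left _ _

lemma pm_le (m : ℕ) (μ : c.Mol) : c.pm m μ ≤ ‖μ‖ :=
  ((c.summable_pm μ).le_tsum m fun _ _ => apply_nonneg _ _).trans (le_max_right _ _)

/-- The interpolation inequality. -/
lemma key {g : MM E → ℝ} {L a : ℝ} (hL : 0 < L) (ha : 0 < a) (h1 : Lp L g)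
    (h2 : ∀ ν, |c.pair g ν| ≤ a * c.NN ν) (m : ℕ) (μ : c.Mol) :
    |c.pair g μ| ≤ (2 ^ (m + 1) * L + (1 / 2) ^ (m + 1) * a) * ‖μ‖ := by
  set t : ℝ := 2 ^ (m + 1) * L + (1 / 2) ^ (m + 1) * a with ht
  have hh : (2 : ℝ) ^ (m + 1) * (1 / 2) ^ (m + 1) = 1 := by rw [← mul_pow]; norm_num
  have p1 : (0 : ℝ) < 2 ^ (m + 1) := by positivity
  have p2 : (0 : ℝ) < (1 / 2) ^ (m + 1) := by positivity
  have ht0 : 0 < t := by positivity
  have hmem : (fun p => t⁻¹ • g p) ∈ c.Sm m := by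
    refine ⟨⟨by simp [h1.1], fun p q => ?_⟩, fun ν => ?_⟩
    · rw [← smul_sub, smul_eq_mul, abs_mul, abs_of_pos (inv_pos.2 ht0), inv_mul_le_iff₀ ht0,
        ← mul_assoc]
      refine (h1.2 p q).trans (mul_le_mul_of_nonneg_right ?_ (ds_nonneg p q))
      have : 0 ≤ (1 / 2 : ℝ) ^ (m + 1) * a * (1 / 2) ^ (m + 1) := by positivity
      have e : t * (1 / 2) ^ (m + 1) = (2 ^ (m + 1) * (1 / 2) ^ (m + 1)) * L
        + (1 / 2 : ℝ) ^ (m + 1) * a * (1 / 2) ^ (m + 1) := by rw [ht]; ring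
      rw [e, hh]; linarith
    · rw [c.pair_smul, smul_eq_mul, abs_mul, abs_of_pos (inv_pos.2 ht0), inv_mul_le_iff₀ ht0,
        ← mul_assoc]
      refine (h2 ν).trans (mul_le_mul_of_nonneg_right ?_ (apply_nonneg _ _))
      have : 0 ≤ (2 : ℝ) ^ (m + 1) * L * 2 ^ (m + 1) := by positivity
      have e : t * 2 ^ (m + 1) = 2 ^ (m + 1) * L * 2 ^ (m + 1)
        + (2 ^ (m + 1) * (1 / 2) ^ (m + 1)) * a := by rw [ht]; ring
      rw [e, hh]; linarith
  have h3 := (c.le_supSemi (S := c.Sm m) (fun _ hg => hg.1) hmem μ).trans (c.pm_le m μ)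
  rwa [c.pair_smul, smul_eq_mul, abs_mul, abs_of_pos (inv_pos.2 ht0), inv_mul_le_iff₀ ht0] at h3

lemma norm_dl_sub (p q : MM E) : ‖c.dl p - c.dl q‖ ≤ ds p q := by
  rw [norm_eq]
  refine max_le (c.supSemi_le _ (ds_nonneg p q) fun g hg => ?_) ?_
  · rw [map_sub, pair_dl, pair_dl]
    simpa using (c.SN_Lp g hg).2 p q
  · refine (c.summable_pm _).tsum_le_tsum (fun m => ?_) (hasSum_half (ds p q)).summable
      |>.trans_eq (hasSum_half (ds p q)).tsum_eq
    refine c.supSemi_le _ (mul_nonneg (by positivity) (ds_nonneg p q)) fun g hg => ?_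
    rw [map_sub, pair_dl, pair_dl]
    exact hg.1.2 p q

/-- The Banach space of the construction. -/
abbrev Z : Type := UniformSpace.Completion c.Mol

lemma norm_dl_coe_sub (p q : MM E) : ‖(c.dl p : c.Z) - (c.dl q : c.Z)‖ ≤ ds p q := by
  rw [← UniformSpace.Completion.coe_sub, UniformSpace.Completion.norm_coe]
  exact c.norm_dl_sub p q

instance [TopologicalSpace.SeparableSpace E] : TopologicalSpace.SeparableSpace c.Z := by
  refine separable_of_span (s := Set.range fun p => (c.dl p : c.Z))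
    (TopologicalSpace.isSeparable_range ?_) fun ζ => ?_
  · refine (LipschitzWith.of_dist_le_mul (K := 2) fun p q => ?_).continuous
    rw [dist_eq_norm]
    exact (c.norm_dl_coe_sub p q).trans (ds_le p q)
  · induction ζ using UniformSpace.Completion.induction_on with
    | hp => exact isClosed_closure
    | ih μ =>
      refine subset_closure ?_
      have e : μ = ∑ p ∈ μ.co.support, μ.co p • c.dl p :=
        (Finsupp.sum_single μ.co).symm.trans
          (sum_congr rfl fun p _ => (Finsupp.smul_single_one p (μ.co p)).symm)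
      have e2 := congrArg (UniformSpace.Completion.toComplL (𝕜 := ℝ) (E := c.Mol)) e
      rw [map_sum] at e2
      simp only [map_smul, UniformSpace.Completion.coe_toComplL] at e2
      rw [e2]
      exact Submodule.sum_mem _ fun p _ => Submodule.smul_mem _ _ (Submodule.subset_span ⟨p, rfl⟩)

end Ctx

end Crest.Agent.R91
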