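import Crest.Agent.R91.KL

/-! The space of row 91 contains no copy of `c₀`. -/

set_option autoImplicit false

namespace Crest.Agent.R91

open Filter Topology Finset UniformSpace

lemma ultra_finite {α : Type} (F : Ultrafilter ℕ) {f : ℕ → α} {S : Set α} (hS : S.Finite)
    (h : ∀ᶠ n in F, f n ∈ S) : ∃ a ∈ S, ∀ᶠ n in F, f n = a :=
  (Ultrafilter.eventually_exists_mem_iff hS).1 (h.mono fun n hn => ⟨f n, hn, rfl⟩)

lemma ultra_nat (F : Ultrafilter ℕ) (f : ℕ → ℕ) :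
    (∃ a, ∀ᶠ n in F, f n = a) ∨ Tendsto f F atTop := by
  by_cases h : ∀ b, ∀ᶠ n in F, b ≤ f n
  · exact Or.inr (tendsto_atTop.2 h)
  · obtain ⟨b, hb⟩ := not_forall.1 h
    rw [← Ultrafilter.eventually_not] at hb
    obtain ⟨a, -, ha⟩ := ultra_finite F (Set.finite_Iio b) (hb.mono fun n hn => not_le.1 hn)
    exact Or.inl ⟨a, ha⟩

lemma ultra_int (F : Ultrafilter ℕ) (f : ℕ → ℤ) :
    Tendsto f F atTop ∨ Tendsto f F atBot ∨ ∃ a, ∀ᶠ n in F, f n = a := by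
  by_cases h : ∀ b, ∀ᶠ n in F, b ≤ f n
  · exact Or.inl (tendsto_atTop.2 h)
  by_cases h' : ∀ b, ∀ᶠ n in F, f n ≤ b
  · exact Or.inr (Or.inl (tendsto_atBot.2 h'))
  obtain ⟨b, hb⟩ := not_forall.1 h
  obtain ⟨b', hb'⟩ := not_forall.1 h'
  rw [← Ultrafilter.eventually_not] at hb hb'
  obtain ⟨a, -, ha⟩ := ultra_finite F (Set.finite_Ioo b' b)
    ((hb.and hb').mono fun n hn => ⟨not_le.1 hn.2, not_le.1 hn.1⟩)
  exact Or.inr (Or.inr ⟨a, ha⟩)

variable {E : Type} [NormedAddCommGroup E] [NormedSpace ℝ E]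

namespace Ctx

variable {c : Ctx E}

lemma pair_null (hE : NoC0 E) {μ : ℕ → c.Mol} (hμ : WUC μ) {Φ : MM E → E} {a : ℝ} (ha : 0 ≤ a)
    (h : ∀ ν, ‖c.pair Φ ν‖ ≤ a * c.NN ν) :
    Tendsto (fun n => ‖c.pair Φ (μ n)‖) atTop (𝓝 0) :=
  hE _ (hμ.map (c.pair Φ).toAddMonoidHom ha fun ν =>
    (h ν).trans (mul_le_mul_of_nonneg_left (c.NN_le ν) ha))

lemma norm_pair_Cl_le {i : ℕ} {k : ℤ} {s q : ℕ} {Ψ : MM E → E} (h : Ψ ∈ c.Cl i k s q)
    (μ : c.Mol) : ‖c.pair Ψ μ‖ ≤ 1 / th s * c.NN μ := by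
  obtain ⟨ξ, hξ, h1⟩ := exists_dual_vector'' ℝ (c.pair Ψ μ)
  have := abs_pair_Cl_le h hξ μ
  rw [h1] at this
  exact (le_abs_self _).trans this

/-- The cases which need no induction on the level. -/
lemma reduce (hE : NoC0 E) (F : Ultrafilter ℕ) (hF : (F : Filter ℕ) ≤ atTop) {μ : ℕ → c.Mol}
    (hμ : WUC μ) {s : ℕ} {i q : ℕ → ℕ} {k : ℕ → ℤ} {Ψ : ℕ → MM E → E} {t : ℝ} (ht : 0 < t)
    (h : ∀ᶠ n in F, Ψ n ∈ c.Cl (i n) (k n) s (q n) ∧ t ≤ ‖c.pair (Ψ n) (μ n)‖) :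
    ∃ i0 k0, (∀ᶠ n in F, i n = i0 ∧ k n = k0) ∧ Tendsto q F atTop := by
  have h' : ∀ᶠ n in F, Ψ n ∈ c.Cl (i n) (k n) s (q n) ∧
      t ≤ ‖c.pair (fun p => Ψ n p - (fun _ => 0) p) (μ n)‖ := by simpa using h
  have hII : Tendsto i F atTop → (∀ᶠ n in F, ∀ᶠ n' in F, k n ≥ k n') → False := by
    intro hi hk
    refine kill_T (k := k) (Φ := Ψ) (Ψ := fun _ _ => 0) hF hμ ht
      (h'.mono fun n hn => ⟨⟨_, _, hn.1⟩, ⟨0, 0, c.zero_mem_Cl _ _ s _⟩, hn.2⟩) ?_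
    filter_upwards [hk] with n hn j
    filter_upwards [hn, h, hi.eventually_ge_atTop j] with n' h1 h2 h3 p hp
    obtain ⟨a, ha⟩ := Cl_supp h2.1
    have h4 := (lo_anti h1).trans ((ha p hp).1.1.le.trans (sig_le_tau h3 p))
    exact h4.trans (le_mul_of_one_le_left ((lo_pos _).le.trans h4) (one_le_pow₀ one_le_two))
  rcases ultra_int F k with hk | hk | ⟨k0, hk⟩
  · exfalso
    refine kill_C (Φ := Ψ) (Ψ := fun _ _ => 0) (ρ := fun n => 4 ^ s * hi (k n) + 5 * c.r (k n))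
      F hF hμ ht (by
        simpa using ((hi_tendsto.comp hk).const_mul (4 ^ s)).add ((c.r_lim.comp hk).const_mul 5))
      (h'.mono fun n hn => ⟨⟨_, _, _, hn.1⟩, ⟨0, 0, 0, c.zero_mem_Cl _ _ s _⟩, hn.2,
        fun p => ?_, ?_⟩)
    · rw [sub_zero]; linarith [Cl_bdd hn.1 p, c.r_pos (k n)]
    · obtain ⟨a, ha⟩ := Cl_supp hn.1
      have : 0 < 4 ^ s * hi (k n) := mul_pos (by positivity) (hi_pos _)
      exact ⟨a, fun p hp => by linarith [(ha p hp).2]⟩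
  · exfalso
    rcases ultra_nat F i with ⟨i0, hi⟩ | hi
    · refine kill_disj (Δ := fun n p => Ψ n p - (fun _ => 0) p) hF hμ ht
        (h'.mono fun n hn => ⟨⟨_, _, ⟨_, _, _, hn.1⟩, ⟨0, 0, 0, c.zero_mem_Cl _ _ s _⟩, rfl⟩,
          hn.2⟩) ?_
      filter_upwards [h, hi] with n h1 h2
      filter_upwards [h, hi, hk.eventually_le_atBot (k n - 2)] with n' h3 h4 h5 p
      obtain ⟨a, ha⟩ := Cl_supp h1.1
      obtain ⟨a', ha'⟩ := Cl_supp h3.1
      by_contra hc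
      simp only [sub_zero, not_or] at hc
      have e1 := (ha p hc.1).1.2
      have e2 := (ha' p hc.2).1.1
      rw [h2] at e1
      rw [h4] at e2
      linarith [hi_le_lo (k := k n) (k' := k n') (by omega)]
    · exact hII hi (Eventually.of_forall fun n => hk.eventually_le_atBot (k n))
  · rcases ultra_nat F i with ⟨i0, hi⟩ | hi
    · refine ⟨i0, k0, hi.and hk, (ultra_nat F q).resolve_left ?_⟩
      rintro ⟨q0, hq⟩
      obtain ⟨Φ, hΦ, h1⟩ := ultra_finite F (f := Ψ) (c.Cl_finite i0 k0 s q0) (by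
        filter_upwards [h, hi, hk, hq] with n h1 h2 h3 h4
        rw [← h2, ← h3, ← h4]; exact h1.1)
      have h2 := (pair_null hE hμ (one_div_pos.2 (th_pos s)).le (norm_pair_Cl_le hΦ)).mono_left hF
      obtain ⟨n, h3, h4, h5⟩ := (h.and (h1.and (h2.eventually (gt_mem_nhds ht)))).exists
      rw [← h4] at h5
      exact absurd h3.2 (not_le.2 h5)
    · exact (hII hi (hk.mono fun n hn => hk.mono fun n' hn' => by rw [hn, hn'])).elim

theorem null (hE : NoC0 E) {μ : ℕ → c.Mol} (hμ : WUC μ) (s : ℕ) :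
    ∀ t : ℝ, 0 < t → ∀ᶠ n in atTop, ∀ Ψ, c.InC s Ψ → ‖c.pair Ψ (μ n)‖ < t := by
  have main : ∀ (s : ℕ) (t : ℝ), 0 < t →
      (∀ (F : Ultrafilter ℕ) (i : ℕ) (k : ℤ) (q : ℕ → ℕ) (Ψ : ℕ → MM E → E),
        (F : Filter ℕ) ≤ atTop → Tendsto q F atTop →
        (∀ᶠ n in F, Ψ n ∈ c.Cl i k s (q n) ∧ t ≤ ‖c.pair (Ψ n) (μ n)‖) → False) →
      ∀ᶠ n in atTop, ∀ Ψ, c.InC s Ψ → ‖c.pair Ψ (μ n)‖ < t := by
    intro s t ht H
    by_contra hc
    rw [not_eventually] at hc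
    have hne := frequently_iff_neBot.1 hc
    set F := Ultrafilter.of
      (atTop ⊓ 𝓟 {n | ¬ ∀ Ψ, c.InC s Ψ → ‖c.pair Ψ (μ n)‖ < t}) with hFdef
    have hF : (F : Filter ℕ) ≤ atTop := (Ultrafilter.of_le _).trans inf_le_left
    have h1 : ∀ᶠ n in F, ¬ ∀ Ψ, c.InC s Ψ → ‖c.pair Ψ (μ n)‖ < t :=
      le_principal_iff.1 ((Ultrafilter.of_le _).trans inf_le_right)
    have h2 : ∀ n, ∃ i k q Ψ, (¬ ∀ Ψ, c.InC s Ψ → ‖c.pair Ψ (μ n)‖ < t) →
        Ψ ∈ c.Cl i k s q ∧ t ≤ ‖c.pair Ψ (μ n)‖ := fun n => by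
      by_cases h : ∀ Ψ, c.InC s Ψ → ‖c.pair Ψ (μ n)‖ < t
      · exact ⟨0, 0, 0, 0, fun h' => absurd h h'⟩
      · push Not at h
        obtain ⟨Ψ, ⟨i, k, q, h3⟩, h4⟩ := h
        exact ⟨i, k, q, Ψ, fun _ => ⟨h3, h4⟩⟩
    choose i k q Ψ h2 using h2
    obtain ⟨i0, k0, h3, h4⟩ := reduce hE F hF hμ ht (h1.mono h2)
    refine H F i0 k0 q Ψ hF h4 ?_
    filter_upwards [h1, h3] with n h5 h6
    rw [← h6.1, ← h6.2]; exact h2 n h5
  induction s with
  | zero =>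
    intro t ht
    refine main 0 t ht fun F i k q Ψ hF _ h => ?_
    obtain ⟨T, -, hT⟩ := (Ultrafilter.eventually_exists_mem_iff (f := F)
      (P := fun T n => c.AdmT k T ∧ t ≤ ‖c.pair (c.bs i k T) (μ n)‖)
      (c.C k).powerset.finite_toSet).1 (h.mono fun n hn => by
        obtain ⟨⟨T, hT, e⟩, h1⟩ := hn
        refine ⟨T, mem_coe.2 (mem_powerset.2 hT.1), hT, h1.trans ?_⟩
        rw [e, ← c.map_pair]
        exact c.P_le _ _)
    obtain ⟨n0, hT0, -⟩ := hT.exists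
    have h2 := (pair_null hE hμ (Φ := c.bs i k T) zero_le_one fun ν => by
      rw [one_mul, c.bs_eq]; exact norm_pair_Win_le i hT0.adm ν).mono_left hF
    obtain ⟨n, h3, h4⟩ := (hT.and (h2.eventually (gt_mem_nhds ht))).exists
    exact absurd h3.2 (not_le.2 h4)
  | succ s ih =>
    intro t ht
    refine main (s + 1) t ht fun F i k q Ψ hF hq h => ?_
    have h1 : ∀ n, ∃ Φ, (Ψ n ∈ c.Cl i k (s + 1) (q n) ∧ t ≤ ‖c.pair (Ψ n) (μ n)‖) →
        (∀ Ψ, c.InC s Ψ → ‖c.pair Ψ (μ n)‖ < t / 2) →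
        ((∃ q', Φ ∈ c.Cl i k (s + 1) q') ∧ t / 2 ≤ ‖c.pair (fun p => Ψ n p - Φ p) (μ n)‖) ∧
          (Ψ n = opT s (q n) k Φ ∨ ∃ a, Ψ n = c.opC (q n) a Φ) := fun n => by
      by_cases h2 : Ψ n ∈ c.Cl i k (s + 1) (q n) ∧ t ≤ ‖c.pair (Ψ n) (μ n)‖
      · rcases h2.1 with h3 | ⟨q', -, Φ, hΦ, h3⟩
        · exact ⟨0, fun _ h4 => absurd (h4 _ ⟨_, _, _, h3⟩) (by linarith [h2.2])⟩
        · refine ⟨Φ, fun _ h4 => ⟨⟨⟨q', Cl.lift hΦ⟩, ?_⟩, h3.imp id fun ⟨a, _, h⟩ => ⟨a, h⟩⟩⟩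
          rw [c.pair_sub]
          linarith [h2.2, h4 _ ⟨_, _, _, hΦ⟩, norm_sub_norm_le (c.pair (Ψ n) (μ n)) (c.pair Φ (μ n))]
      · exact ⟨0, fun h3 => absurd h3 h2⟩
    choose Φ h1 using h1
    have h2 := (h.and ((ih (t / 2) (half_pos ht)).filter_mono hF)).mono fun n hn =>
      And.intro hn.1.1 (h1 n hn.1 hn.2)
    rcases Ultrafilter.eventually_or.1 (h2.mono fun n hn => hn.2.2) with h3 | h3
    · refine kill_T (k := fun _ => k) (Φ := Ψ) (Ψ := Φ) hF hμ (half_pos ht)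
        (h2.mono fun n hn => ⟨⟨_, _, hn.1⟩, ⟨_, hn.2.1.1⟩, hn.2.1.2⟩)
        (Eventually.of_forall fun n j => ?_)
      filter_upwards [h3, hq.eventually_ge_atTop j] with n' h4 h5 p hp
      by_contra h6
      apply hp
      rw [h4]
      unfold opT
      rw [chi_of_le, one_smul]
      rw [div_le_one (lo_pos k)]
      exact (mul_le_mul_of_nonneg_left (tau_anti h5 p) (by positivity)).trans (not_le.1 h6).le
    · refine kill_C (s := s + 1) (Φ := Ψ) (Ψ := Φ) (ρ := fun n => 4 * RR (q n)) F hF hμ (half_pos ht)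
        (by simpa using (RR_tendsto.comp hq).const_mul 4) ?_
      filter_upwards [h2, h3] with n h4 ⟨a, h5⟩
      obtain ⟨q', h6⟩ := h4.2.1.1
      refine ⟨⟨_, _, _, h4.1⟩, ⟨_, _, _, h6⟩, h4.2.1.2, fun p => ?_, a, fun p hp => ?_⟩
      · rw [h5]; exact c.norm_opC_sub_le _ _ _ _
      · by_contra h7
        apply hp
        rw [h5]
        exact c.opC_of_far _ (by linarith [RR_pos (q n), not_le.1 h7])

lemma norm_pair_Win_le_of {μ : c.Mol} {t : ℝ} (ht : 0 ≤ t)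
    (h : ∀ Ψ, c.InC 0 Ψ → ‖c.pair Ψ μ‖ ≤ t) (i : ℕ) {K : Finset ℤ} {co : ℤ → MM E → ℝ}
    (hK : c.Adm K co) : ‖c.pair (c.Win i K co) μ‖ ≤ 8 * t := by
  classical
  have h1 : ∀ k T, c.AdmT k T → ‖c.pair (c.bs i k T) μ‖ ≤ t := fun k T hT =>
    le_of_tendsto' (c.P_lim (c.pair (c.bs i k T) μ)).norm fun m => by
      rw [c.map_pair]; exact h _ ⟨i, k, m, T, hT, rfl⟩
  set v : ℤ → MM E → E := fun k a => c.pair (fun p => (ww i k p * c.pi k a p) • p.1 i) μ with hv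
  have h2 : ∀ k (co : MM E → ℝ), c.pair (fun p => (ww i k p * c.G k co p) • p.1 i) μ
      = ∑ a ∈ c.C k, co a • v k a := fun k co => by
    have : (fun p : MM E => (ww i k p * c.G k co p) • p.1 i)
        = fun p => ∑ a ∈ c.C k, co a • ((ww i k p * c.pi k a p) • p.1 i) := by
      funext p
      simp only [G, mul_sum, sum_smul, smul_smul]
      exact sum_congr rfl fun a _ => by rw [mul_left_comm]
    rw [this, c.pair_sum]
    exact sum_congr rfl fun a _ => c.pair_smul _ _ _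
  obtain ⟨hcard, hco, a0, ha0⟩ := hK
  have h3 : ∀ k, ‖∑ a ∈ c.C k, co k a • v k a‖ ≤ 2 * t := fun k => by
    obtain ⟨ξ, hξ, e⟩ := exists_dual_vector'' ℝ (∑ a ∈ c.C k, co k a • v k a)
    set T1 := (c.C k).filter fun a => co k a ≠ 0 ∧ 0 ≤ ξ (v k a) with hT1
    set T2 := (c.C k).filter fun a => co k a ≠ 0 ∧ ξ (v k a) < 0 with hT2
    have b1 := (abs_dual_le hξ _).trans (h1 k T1
      ⟨filter_subset _ _, a0, fun a ha => ha0 k a (mem_filter.1 ha).2.1⟩)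
    have b2 := (abs_dual_le hξ _).trans (h1 k T2
      ⟨filter_subset _ _, a0, fun a ha => ha0 k a (mem_filter.1 ha).2.1⟩)
    have e1 := h2 k (ind T1)
    have e2 := h2 k (ind T2)
    change c.pair (c.bs i k T1) μ = _ at e1
    change c.pair (c.bs i k T2) μ = _ at e2
    rw [e1] at b1
    rw [e2] at b2
    simp only [map_sum, map_smul, smul_eq_mul] at e b1 b2
    have b3 : ∑ a ∈ c.C k, co k a * ξ (v k a)
        ≤ ∑ a ∈ c.C k, ind T1 a * ξ (v k a) - ∑ a ∈ c.C k, ind T2 a * ξ (v k a) := by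
      rw [← sum_sub_distrib]
      refine sum_le_sum fun a ha => ?_
      have := abs_le.1 (hco k a)
      by_cases h0 : co k a = 0
      · simp [ind, hT1, hT2, h0]
      · by_cases h4 : 0 ≤ ξ (v k a)
        · simp only [ind, hT1, hT2, mem_filter, ha, h0, h4, not_lt.2 h4, ne_eq, not_false_eq_true,
            and_self, and_false, if_true, if_false]
          nlinarith [this.2]
        · simp only [ind, hT1, hT2, mem_filter, ha, h0, h4, not_le.1 h4, ne_eq, not_false_eq_true,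
            and_self, and_false, if_true, if_false]
          nlinarith [this.1, not_le.1 h4]
    have e' : ∑ a ∈ c.C k, co k a * ξ (v k a) = ‖∑ a ∈ c.C k, co k a • v k a‖ := e
    linarith [(abs_le.1 b1).2, (abs_le.1 b2).1]
  have h4 : c.Win i K co = fun p => ∑ k ∈ K, (ww i k p * c.G k (co k) p) • p.1 i := by
    funext p
    simp only [Win, wh, sum_smul]
  rw [h4, c.pair_sum]
  refine (norm_sum_le _ _).trans ((sum_le_sum (g := fun _ => 2 * t) fun k _ => by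
    rw [h2]; exact h3 k).trans ?_)
  rw [sum_const, nsmul_eq_mul]
  have : (K.card : ℝ) ≤ 4 := by exact_mod_cast hcard
  nlinarith

lemma NN_null (hE : NoC0 E) {μ : ℕ → c.Mol} (hμ : WUC μ) :
    Tendsto (fun n => c.NN (μ n)) atTop (𝓝 0) := by
  rw [tendsto_order]
  refine ⟨fun a ha => Eventually.of_forall fun n => ha.trans_le (apply_nonneg _ _),
    fun ε hε => ?_⟩
  obtain ⟨C, hC⟩ : ∃ C, 0 < C ∧ ∀ n, ‖μ n‖ ≤ C := by
    obtain ⟨C, hC⟩ := hμ
    exact ⟨C + 1, by linarith [(norm_nonneg _).trans (hC ∅)], fun n => by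
      have := hC {n}
      rw [sum_singleton] at this
      linarith⟩
  have hC0 := hC.1
  obtain ⟨m, hm⟩ := exists_pow_lt_of_lt_one (show 0 < ε / 4 / C by positivity)
    (show (1 / 2 : ℝ) < 1 by norm_num)
  obtain ⟨s0, hs0⟩ := exists_nat_gt (2 ^ (m + 1) * C / (ε / 4))
  have h1 : ∀ᶠ n in atTop, ∀ s ∈ range s0, ∀ Ψ, c.InC s Ψ → ‖c.pair Ψ (μ n)‖ < ε / 2 / th s :=
    (eventually_all_finset _).2 fun s _ => null hE hμ s _ (div_pos (half_pos hε) (th_pos s))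
  filter_upwards [h1, null hE hμ 0 (ε / 16) (by positivity)] with n h2 h3
  refine (c.supSemi_le _ (half_pos hε).le ?_).trans_lt (half_lt_self hε)
  rintro g ⟨ξ, hξ, ⟨i, K, co, h, rfl⟩ | ⟨i, k, s, q, Ψ, h, rfl⟩⟩
  · rw [← c.map_pair]
    refine (abs_dual_le hξ _).trans ((norm_pair_Win_le_of (by positivity)
      (fun Ψ hΨ => (h3 Ψ hΨ).le) i h).trans_eq (by ring))
  · by_cases hs : s < s0
    · rw [c.pair_smul, ← c.map_pair, smul_eq_mul, abs_mul, abs_of_pos (th_pos s),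
        ← le_div_iff₀' (th_pos s)]
      exact (abs_dual_le hξ _).trans (h2 s (mem_range.2 hs) Ψ ⟨_, _, _, h⟩).le
    · refine (c.key (by positivity) one_pos (Lp_th h hξ) (fun ν => by
        rw [one_mul]
        exact c.le_supSemi c.SN_Lp ⟨ξ, hξ, Or.inr ⟨i, k, s, q, Ψ, h, rfl⟩⟩ ν) m (μ n)).trans
        ((mul_le_mul_of_nonneg_left (hC.2 n) (by positivity)).trans ?_)
      rw [lt_div_iff₀ hC0] at hm
      rw [div_lt_iff₀ (by positivity)] at hs0
      have h4 : (s0 : ℝ) ≤ s := by exact_mod_cast not_lt.1 hs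
      have h5 : 2 ^ (m + 1) * (1 / ((s : ℝ) + 1)) * C ≤ ε / 4 := by
        rw [mul_one_div, div_mul_eq_mul_div, div_le_iff₀ (by positivity)]
        nlinarith
      have h6 : (1 / 2 : ℝ) ^ (m + 1) * 1 * C = (1 / 2) ^ m * C / 2 := by ring
      rw [add_mul, h6]
      linarith

theorem noC0_Mol (hE : NoC0 E) : NoC0 c.Mol := by
  intro μ hμ
  have h1 := NN_null hE hμ
  obtain ⟨C, hC⟩ := hμ
  have h2 := gliding_hump c.pm c.summable_pm μ C (fun F => (le_max_right _ _).trans (hC F))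
    fun m => squeeze_zero (fun _ => apply_nonneg _ _) (fun n => c.pm_le_NN m (μ n))
      (by simpa using h1.const_mul (2 ^ (m + 1)))
  simpa [norm_eq] using h1.max h2

theorem noC0_Z (hE : NoC0 E) : NoC0 c.Z := by
  intro y hy
  have h1 : ∀ n : ℕ, ∃ μ : c.Mol, ‖y n - μ‖ ≤ (1 / 2) ^ n := fun n => by
    obtain ⟨μ, hμ⟩ := (Completion.denseRange_coe (α := c.Mol)).exists_dist_lt (y n)
      (show (0 : ℝ) < (1 / 2) ^ n by positivity)
    exact ⟨μ, by rw [← dist_eq_norm]; exact hμ.le⟩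
  choose μ hμ using h1
  obtain ⟨C, hC⟩ := hy
  have h2 : WUC μ := ⟨C + 2, fun F => by
    have e := map_sum (Completion.toComplL (𝕜 := ℝ) (E := c.Mol)) μ F
    simp only [Completion.coe_toComplL] at e
    rw [← Completion.norm_coe, e]
    have e2 : ∑ n ∈ F, (μ n : c.Z) = ∑ n ∈ F, y n - ∑ n ∈ F, (y n - μ n) := by
      rw [sum_sub_distrib]; abel
    rw [e2]
    refine (norm_sub_le _ _).trans (add_le_add (hC F) ((norm_sum_le _ _).trans
      ((sum_le_sum fun n _ => hμ n).trans ?_)))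
    exact (summable_geometric_two.sum_le_tsum _ fun _ _ => by positivity).trans_eq
      tsum_geometric_two⟩
  refine squeeze_zero (fun _ => norm_nonneg _) (g := fun n => (1 / 2) ^ n + ‖μ n‖) (fun n => ?_) ?_
  · rw [← Completion.norm_coe (μ n)]
    exact (norm_le_norm_sub_add _ _).trans (add_le_add_left (hμ n) _)
  · simpa using (tendsto_pow_atTop_nhds_zero_of_lt_one (r := (1 / 2 : ℝ)) (by norm_num)
      (by norm_num)).add (noC0_Mol hE μ h2)

end Ctx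

end Crest.Agent.R91
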