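import Mathlib

/-! Sequence-space tools for row 91: bounded subset sums, gliding humps, separability. -/

set_option autoImplicit false

namespace Crest.Agent.R91

open Filter Topology Finset

/-- All finite subset sums are uniformly bounded. -/
def WUC {V : Type*} [SeminormedAddCommGroup V] (y : ℕ → V) : Prop :=
  ∃ C : ℝ, ∀ F : Finset ℕ, ‖∑ n ∈ F, y n‖ ≤ C

/-- Every sequence with bounded subset sums is null. -/
def NoC0 (V : Type*) [SeminormedAddCommGroup V] : Prop :=
  ∀ y : ℕ → V, WUC y → Tendsto (fun n => ‖y n‖) atTop (𝓝 0)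

section
variable {V W : Type*} [SeminormedAddCommGroup V] [SeminormedAddCommGroup W]

lemma WUC.comp {y : ℕ → V} (h : WUC y) {φ : ℕ → ℕ} (hφ : Function.Injective φ) :
    WUC (fun n => y (φ n)) := by
  obtain ⟨C, hC⟩ := h
  refine ⟨C, fun F => ?_⟩
  have := hC (F.map ⟨φ, hφ⟩)
  rwa [sum_map] at this

lemma WUC.map {y : ℕ → V} (h : WUC y) (T : V →+ W) {a : ℝ} (ha : 0 ≤ a)
    (hT : ∀ v, ‖T v‖ ≤ a * ‖v‖) : WUC (fun n => T (y n)) := by
  obtain ⟨C, hC⟩ := h
  refine ⟨a * C, fun F => ?_⟩
  rw [← map_sum]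
  exact (hT _).trans (mul_le_mul_of_nonneg_left (hC F) ha)

lemma WUC.signs [Module ℝ V] {y : ℕ → V} (h : WUC y) :
    ∃ C : ℝ, 0 < C ∧ ∀ (N : ℕ) (ε : ℕ → ℝ), (∀ n, ε n = 1 ∨ ε n = -1) →
      ‖∑ n ∈ range N, ε n • y n‖ ≤ C := by
  classical
  obtain ⟨C, hC⟩ := h
  have hC0 : 0 ≤ C := (norm_nonneg _).trans (hC ∅)
  refine ⟨2 * C + 1, by linarith, fun N ε hε => ?_⟩
  rw [← sum_filter_add_sum_filter_not (range N) (fun n => ε n = 1)]
  have h1 : ∑ n ∈ (range N).filter (fun n => ε n = 1), ε n • y n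
      = ∑ n ∈ (range N).filter (fun n => ε n = 1), y n :=
    sum_congr rfl fun n hn => by rw [(mem_filter.1 hn).2, one_smul]
  have h2 : ∑ n ∈ (range N).filter (fun n => ¬ ε n = 1), ε n • y n
      = -∑ n ∈ (range N).filter (fun n => ¬ ε n = 1), y n := by
    rw [← sum_neg_distrib]
    exact sum_congr rfl fun n hn => by
      rw [(hε n).resolve_left (mem_filter.1 hn).2, neg_one_smul]
  rw [h1, h2]
  refine (norm_add_le _ _).trans ?_
  rw [norm_neg]
  linarith [hC ((range N).filter (fun n => ε n = 1)), hC ((range N).filter (fun n => ¬ ε n = 1))]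

end

/-- Signs can be chosen so that a quadratic form dominates its diagonal. -/
lemma exists_signs (B : ℕ → ℕ → ℝ) (N : ℕ) :
    ∃ ε : ℕ → ℝ, (∀ n, ε n = 1 ∨ ε n = -1) ∧
      ∑ n ∈ range N, B n n ≤ ∑ n ∈ range N, ∑ n' ∈ range N, ε n * ε n' * B n n' := by
  induction N with
  | zero => exact ⟨fun _ => 1, fun _ => Or.inl rfl, by simp⟩
  | succ N ih =>
    obtain ⟨ε, hε, h⟩ := ih
    set t : ℝ := ∑ n ∈ range N, ε n * (B n N + B N n) with ht
    set s : ℝ := if 0 ≤ t then 1 else -1 with hs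
    have hs1 : s = 1 ∨ s = -1 := by rw [hs]; split_ifs <;> simp
    have hst : 0 ≤ s * t := by rw [hs]; split_ifs <;> linarith
    have hss : s * s = 1 := by rcases hs1 with h | h <;> rw [h] <;> norm_num
    refine ⟨Function.update ε N s, fun n => ?_, ?_⟩
    · by_cases hn : n = N
      · rw [hn, Function.update_self]; exact hs1
      · rw [Function.update_of_ne hn]; exact hε n
    · have hu : ∀ n ∈ range N, Function.update ε N s n = ε n := fun n hn =>
        Function.update_of_ne (mem_range.1 hn).ne _ _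
      simp only [sum_range_succ, sum_add_distrib, Function.update_self]
      have e1 : ∑ n ∈ range N, ∑ n' ∈ range N,
          Function.update ε N s n * Function.update ε N s n' * B n n'
          = ∑ n ∈ range N, ∑ n' ∈ range N, ε n * ε n' * B n n' :=
        sum_congr rfl fun n hn => sum_congr rfl fun n' hn' => by rw [hu n hn, hu n' hn']
      have e2 : ∑ n ∈ range N, Function.update ε N s n * s * B n N
          + ∑ n ∈ range N, s * Function.update ε N s n * B N n = s * t := by
        rw [ht, mul_sum, ← sum_add_distrib]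
        exact sum_congr rfl fun n hn => by rw [hu n hn]; ring
      rw [e1, hss]
      linarith

theorem noC0_hilbert (E : Type*) [NormedAddCommGroup E] [InnerProductSpace ℝ E] : NoC0 E := by
  intro y hy
  obtain ⟨C, -, hC⟩ := hy.signs
  have hs : Summable fun n => ‖y n‖ ^ 2 := by
    refine summable_of_sum_range_le (c := C ^ 2) (fun n => sq_nonneg _) fun N => ?_
    obtain ⟨ε, hε, h⟩ := exists_signs (fun n n' => inner ℝ (y n) (y n')) N
    simp only [real_inner_self_eq_norm_sq] at h
    refine h.trans ?_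
    have : ∑ n ∈ range N, ∑ n' ∈ range N, ε n * ε n' * inner ℝ (y n) (y n')
        = ‖∑ n ∈ range N, ε n • y n‖ ^ 2 := by
      rw [← real_inner_self_eq_norm_sq, sum_inner]
      refine sum_congr rfl fun n _ => ?_
      rw [inner_sum]
      refine sum_congr rfl fun n' _ => ?_
      rw [real_inner_smul_left, real_inner_smul_right, mul_assoc]
    rw [this]
    exact pow_le_pow_left₀ (norm_nonneg _) (hC N ε hε) 2
  have := hs.tendsto_atTop_zero.sqrt
  simpa using this

/-- Gliding hump for an `ℓ¹`-sum of seminorms. -/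
theorem gliding_hump {V : Type*} [AddCommGroup V] [Module ℝ V] (p : ℕ → Seminorm ℝ V)
    (hp : ∀ v, Summable fun m => p m v) (y : ℕ → V) (C : ℝ)
    (hC : ∀ F : Finset ℕ, ∑' m, p m (∑ n ∈ F, y n) ≤ C)
    (h0 : ∀ m, Tendsto (fun n => p m (y n)) atTop (𝓝 0)) :
    Tendsto (fun n => ∑' m, p m (y n)) atTop (𝓝 0) := by
  classical
  rw [tendsto_order]
  refine ⟨fun a ha => Eventually.of_forall fun n =>
    ha.trans_le (tsum_nonneg fun m => apply_nonneg _ _), fun c hc => ?_⟩
  by_contra hcon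
  rw [not_eventually] at hcon
  obtain ⟨f, hf, hr⟩ := exists_seq_of_forall_finset_exists
    (fun x : ℕ × Finset ℕ => 3 * c / 4 ≤ ∑ m ∈ x.2, p m (y x.1) ∧
      ∀ T, Disjoint T x.2 → ∑ m ∈ T, p m (y x.1) ≤ c / 4)
    (fun x x' => x.1 < x'.1 ∧ Disjoint x.2 x'.2) (by
      intro s _
      set A : Finset ℕ := s.biUnion fun x => x.2 with hA
      have h1 : Tendsto (fun n => ∑ m ∈ A, p m (y n)) atTop (𝓝 0) := by
        simpa using tendsto_finsetSum A fun m _ => h0 m
      obtain ⟨n, hn1, hn2, hn3⟩ := (hcon.and_eventually ((h1.eventually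
        (gt_mem_nhds (by linarith : (0 : ℝ) < c / 8))).and
        (eventually_gt_atTop (s.sup fun x => x.1)))).exists
      obtain ⟨T, hT⟩ := (hp (y n)).vanishing (gt_mem_nhds (by linarith : (0 : ℝ) < c / 8))
      have hout : ∀ U, Disjoint U (T \ A) → ∑ m ∈ U, p m (y n) ≤ c / 4 := by
        intro U hU
        rw [← sum_filter_add_sum_filter_not U (fun m => m ∈ A)]
        have a1 : ∑ m ∈ U.filter (fun m => m ∈ A), p m (y n) ≤ ∑ m ∈ A, p m (y n) :=
          sum_le_sum_of_subset_of_nonneg (fun m hm => (mem_filter.1 hm).2)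
            fun m _ _ => apply_nonneg _ _
        have a2 : ∑ m ∈ U.filter (fun m => m ∉ A), p m (y n) < c / 8 := hT _ (by
          rw [disjoint_left]
          intro m hm hmT
          exact disjoint_left.1 hU (mem_filter.1 hm).1 (mem_sdiff.2 ⟨hmT, (mem_filter.1 hm).2⟩))
        linarith
      refine ⟨(n, T \ A), ⟨?_, hout⟩, fun x hx => ⟨?_, ?_⟩⟩
      · have a1 := (hp (y n)).sum_add_tsum_compl (s := T \ A)
        have a2 : ∑' m : ↑(((T \ A : Finset ℕ) : Set ℕ)ᶜ), p m (y n) ≤ c / 4 := by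
          refine ((hp (y n)).subtype _).tsum_le_of_sum_le fun U => ?_
          have := hout (U.map (Function.Embedding.subtype _)) (by
            rw [disjoint_left]
            intro m hm hm'
            obtain ⟨⟨m', hm''⟩, -, rfl⟩ := mem_map.1 hm
            exact hm'' hm')
          rwa [sum_map] at this
        have a3 := not_lt.1 hn1
        change 3 * c / 4 ≤ ∑ m ∈ T \ A, p m (y n)
        linarith
      · exact (Finset.le_sup (f := fun x : ℕ × Finset ℕ => x.1) hx).trans_lt hn3
      · exact disjoint_of_subset_left (subset_biUnion_of_mem (fun x : ℕ × Finset ℕ => x.2) hx)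
          sdiff_disjoint.symm)
  have hmono : StrictMono fun j => (f j).1 := fun i j h => (hr i j h).1
  have hdisj : ∀ i j, i ≠ j → Disjoint (f i).2 (f j).2 := fun i j h => by
    rcases lt_or_gt_of_ne h with h | h
    · exact (hr i j h).2
    · exact (hr j i h).2.symm
  obtain ⟨N, hN⟩ := exists_nat_gt (C / (c / 2))
  rw [div_lt_iff₀ (by linarith)] at hN
  have h1 := hC ((range N).map ⟨_, hmono.injective⟩)
  rw [sum_map] at h1
  simp only [Function.Embedding.coeFn_mk] at h1
  set S := ∑ j ∈ range N, y (f j).1 with hS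
  have h2 : ∑ j ∈ range N, ∑ m ∈ (f j).2, p m S ≤ ∑' m, p m S := by
    rw [← sum_biUnion (fun i _ j _ h => hdisj i j h)]
    exact (hp S).sum_le_tsum _ fun m _ => apply_nonneg _ _
  have h3 : ∀ j ∈ range N, ∀ m, p m (y (f j).1)
      ≤ p m S + ∑ j' ∈ (range N).erase j, p m (y (f j').1) := by
    intro j hj m
    have e : y (f j).1 = S - ∑ j' ∈ (range N).erase j, y (f j').1 := by
      rw [hS, ← add_sum_erase _ _ hj]; abel
    calc p m (y (f j).1) = p m (S - ∑ j' ∈ (range N).erase j, y (f j').1) := by rw [← e]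
      _ ≤ p m S + p m (∑ j' ∈ (range N).erase j, y (f j').1) := map_sub_le_add _ _ _
      _ ≤ _ := add_le_add_right (Finset.le_sum_of_subadditive (p m) (map_zero _).le
        (map_add_le_add _) _ _) _
  have h4 : ∑ j ∈ range N, ∑ m ∈ (f j).2, ∑ j' ∈ (range N).erase j, p m (y (f j').1)
      ≤ N * (c / 4) := by
    have : ∑ j ∈ range N, ∑ m ∈ (f j).2, ∑ j' ∈ (range N).erase j, p m (y (f j').1)
        = ∑ j' ∈ range N, ∑ j ∈ (range N).erase j', ∑ m ∈ (f j).2, p m (y (f j').1) := by
      rw [sum_congr rfl fun j _ => sum_comm (s := (f j).2)]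
      refine sum_comm' fun a b => ?_
      simp only [mem_erase]
      tauto
    rw [this]
    refine (sum_le_sum (g := fun _ => c / 4) fun j' _ => ?_).trans (by simp)
    rw [← sum_biUnion (fun i _ j _ h => hdisj i j h)]
    refine (hf j').2 _ ?_
    rw [disjoint_biUnion_left]
    exact fun j hj => hdisj j j' (mem_erase.1 hj).1
  have h5 : N * (3 * c / 4) ≤ ∑ j ∈ range N, ∑ m ∈ (f j).2, p m (y (f j).1) := by
    refine le_trans (by simp) (sum_le_sum (f := fun _ => 3 * c / 4) fun j _ => (hf j).1)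
  have h6 : ∑ j ∈ range N, ∑ m ∈ (f j).2, p m (y (f j).1)
      ≤ ∑ j ∈ range N, ∑ m ∈ (f j).2, p m S
        + ∑ j ∈ range N, ∑ m ∈ (f j).2, ∑ j' ∈ (range N).erase j, p m (y (f j').1) := by
    rw [← sum_add_distrib]
    refine sum_le_sum fun j hj => ?_
    rw [← sum_add_distrib]
    exact sum_le_sum fun m _ => h3 j hj m
  nlinarith

/-- `ℓ¹` sequences in a Banach space. -/
abbrev L1 (Z : Type) [NormedAddCommGroup Z] : Type := lp (fun _ : ℕ => Z) 1

section L1
variable {Z : Type} [NormedAddCommGroup Z]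

lemma L1.summable (f : L1 Z) : Summable fun n => ‖f n‖ := by
  simpa using (lp.memℓp f).summable (by simp)

lemma L1.norm_eq (f : L1 Z) : ‖f‖ = ∑' n, ‖f n‖ := by
  simpa using lp.norm_eq_tsum_rpow (by simp) f

/-- An `ℓ¹` sequence from a summability proof. -/
def L1.mk (f : ℕ → Z) (h : Summable fun n => ‖f n‖) : L1 Z :=
  ⟨f, memℓp_gen (by simpa using h)⟩

@[simp] lemma L1.mk_apply (f : ℕ → Z) (h : Summable fun n => ‖f n‖) (n : ℕ) :
    L1.mk f h n = f n := rfl

theorem noC0_L1 [NormedSpace ℝ Z] (h : NoC0 Z) : NoC0 (L1 Z) := by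
  intro y hy
  simp only [L1.norm_eq]
  obtain ⟨C, hC⟩ := hy
  refine gliding_hump (fun m => (normSeminorm ℝ Z).comp (lp.evalₗ (fun _ : ℕ => Z) 1 m))
    (fun v => L1.summable v) y C (fun F => (L1.norm_eq _).symm.trans_le (hC F)) fun m => ?_
  exact h _ (WUC.map ⟨C, hC⟩ (lp.evalₗ (𝕜 := ℝ) (fun _ : ℕ => Z) 1 m).toAddMonoidHom zero_le_one
    fun v => by rw [one_mul]; exact lp.norm_apply_le_norm one_ne_zero v m)

end L1

lemma separable_of_span {V : Type*} [NormedAddCommGroup V] [NormedSpace ℝ V] {s : Set V}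
    (hs : TopologicalSpace.IsSeparable s) (h : ∀ v, v ∈ closure (Submodule.span ℝ s : Set V)) :
    TopologicalSpace.SeparableSpace V := by
  rw [← TopologicalSpace.isSeparable_univ_iff]
  exact (hs.span (R := ℝ)).closure.mono fun v _ => h v

instance separable_lp {Z : Type} [NormedAddCommGroup Z] [NormedSpace ℝ Z]
    [TopologicalSpace.SeparableSpace Z] (p : ENNReal) [Fact (1 ≤ p)] [hp : Fact (p ≠ ⊤)] :
    TopologicalSpace.SeparableSpace (lp (fun _ : ℕ => Z) p) := by
  refine separable_of_span (s := ⋃ i : ℕ, Set.range (lp.single (E := fun _ : ℕ => Z) p i))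
    (TopologicalSpace.IsSeparable.iUnion fun i =>
      TopologicalSpace.isSeparable_range (lp.isometry_single i).continuous) fun v => ?_
  refine mem_closure_of_tendsto (lp.hasSum_single hp.out v) (Eventually.of_forall fun s => ?_)
  exact Submodule.sum_mem _ fun i _ => Submodule.subset_span (Set.mem_iUnion.2 ⟨i, _, rfl⟩)

/-- Null sequences. -/
abbrev C0 (E : Type) [NormedAddCommGroup E] : Type := ZeroAtInftyContinuousMap ℕ E

section C0
variable {E : Type} [NormedAddCommGroup E]

lemma C0.norm_apply_le (f : C0 E) (i : ℕ) : ‖f i‖ ≤ ‖f‖ := f.toBCF.norm_coe_le_norm i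

lemma C0.norm_le {f : C0 E} {C : ℝ} (hC : 0 ≤ C) (h : ∀ i, ‖f i‖ ≤ C) : ‖f‖ ≤ C :=
  (BoundedContinuousFunction.norm_le (f := f.toBCF) hC).2 h

lemma C0.tendsto (f : C0 E) : Tendsto (fun i => ‖f i‖) atTop (𝓝 0) := by
  have := zero_at_infty f
  rw [cocompact_eq_cofinite, Nat.cofinite_eq_atTop] at this
  exact tendsto_zero_iff_norm_tendsto_zero.1 this

/-- A null sequence from a convergence proof. -/
def C0.mk (f : ℕ → E) (h : Tendsto (fun i => ‖f i‖) atTop (𝓝 0)) : C0 E :=
  ⟨⟨f, continuous_of_discreteTopology⟩, by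
    rw [cocompact_eq_cofinite, Nat.cofinite_eq_atTop]; exact tendsto_zero_iff_norm_tendsto_zero.2 h⟩

@[simp] lemma C0.mk_apply (f : ℕ → E) (h : Tendsto (fun i => ‖f i‖) atTop (𝓝 0)) (i : ℕ) :
    C0.mk f h i = f i := rfl

/-- The sequence with a single nonzero entry. -/
def C0.single (i : ℕ) (v : E) : C0 E :=
  C0.mk (fun j => if j = i then v else 0) (tendsto_const_nhds.congr' (by
    filter_upwards [eventually_gt_atTop i] with j hj
    simp [hj.ne']))

lemma C0.single_apply (i : ℕ) (v : E) (j : ℕ) : C0.single i v j = if j = i then v else 0 := rfl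

lemma C0.sum_apply {ι : Type*} (s : Finset ι) (f : ι → C0 E) (j : ℕ) :
    (∑ i ∈ s, f i) j = ∑ i ∈ s, f i j := by
  classical
  induction s using Finset.induction_on with
  | empty => rfl
  | insert a s ha ih => rw [sum_insert ha, sum_insert ha, ← ih]; rfl

lemma C0.sum_single_apply (s : Finset ℕ) (v : ℕ → E) (j : ℕ) :
    (∑ i ∈ s, C0.single i (v i)) j = if j ∈ s then v j else 0 := by
  rw [C0.sum_apply]
  simp only [C0.single_apply]
  rw [sum_ite_eq]

instance separable_C0 [NormedSpace ℝ E] [TopologicalSpace.SeparableSpace E] :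
    TopologicalSpace.SeparableSpace (C0 E) := by
  refine separable_of_span (s := ⋃ i : ℕ, Set.range (C0.single (E := E) i))
    (TopologicalSpace.IsSeparable.iUnion fun i =>
      TopologicalSpace.isSeparable_range ?_) fun v => ?_
  · refine (LipschitzWith.of_dist_le_mul (K := 1) fun a b => ?_).continuous
    rw [NNReal.coe_one, one_mul, dist_eq_norm, dist_eq_norm]
    refine C0.norm_le (norm_nonneg _) fun j => ?_
    rw [ZeroAtInftyContinuousMap.sub_apply, C0.single_apply, C0.single_apply]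
    split_ifs <;> simp
  · rw [Metric.mem_closure_iff]
    intro ε hε
    obtain ⟨N, hN⟩ := eventually_atTop.1 ((C0.tendsto v).eventually (gt_mem_nhds (half_pos hε)))
    refine ⟨∑ i ∈ range N, C0.single i (v i), Submodule.sum_mem _ fun i _ =>
      Submodule.subset_span (Set.mem_iUnion.2 ⟨i, _, rfl⟩), ?_⟩
    rw [dist_eq_norm]
    refine (C0.norm_le (half_pos hε).le fun j => ?_).trans_lt (half_lt_self hε)
    rw [ZeroAtInftyContinuousMap.sub_apply, C0.sum_single_apply]
    split_ifs with hj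
    · simp [(half_pos hε).le]
    · rw [sub_zero]; exact (hN j (by simpa using hj)).le

/-- A space with `NoC0` receives no isomorphic embedding of `C0 E`. -/
theorem NoC0.not_embed {Y : Type} [NormedAddCommGroup Y] (hY : NoC0 Y) (T : C0 E →+ Y)
    {a b : ℝ} (ha : 0 ≤ a) (h1 : ∀ x, ‖T x‖ ≤ a * ‖x‖) (h2 : ∀ x, ‖x‖ ≤ b * ‖T x‖) (v : E) :
    v = 0 := by
  have hw : WUC fun n => C0.single n v := ⟨‖v‖, fun F => C0.norm_le (norm_nonneg _) fun j => by
    rw [C0.sum_single_apply F (fun _ => v)]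
    split_ifs <;> simp⟩
  have h3 := (hY _ (hw.map T ha h1)).const_mul b
  rw [mul_zero] at h3
  have h4 : ‖v‖ ≤ 0 := ge_of_tendsto' h3 fun n => by
    refine le_trans ?_ (h2 _)
    have := C0.norm_apply_le (C0.single n v) n
    rwa [C0.single_apply, if_pos rfl] at this
  exact norm_le_zero_iff.1 h4

end C0

end Crest.Agent.R91
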